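import Vale.Agent.P333.Walk

/-! As long as a maximal input string is unconnected there is an affordable linking move. -/

namespace Vale.Agent.P333

open Finset

/-- the linking walk: up, down, up, down -/
def zw (e1 : List ℕ) (k : ℕ) (e2 : List ℕ) : List (Option ℕ) :=
  e1.map some ++ List.replicate k none ++ e2.map some ++
    List.replicate (e1.length + e2.length - k) none

/-- an affordable linking move exists -/
def Move (Sub : List ℕ → Prop) (M : List (Option ℕ)) (L : List Walk) : Prop :=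
  ∃ z e1 k e2, Vtx ([], M) z ∧ Sub e1 ∧ Sub e2 ∧ k ≤ e1.length + e2.length ∧
    Closed (z, zw e1 k e2) ∧ ∃ F : Finset Walk, F.Nonempty ∧
      (∀ K ∈ F, K ∈ L ∧ ∃ w, Vtx K w ∧ Vtx (z, zw e1 k e2) w) ∧
      e1.length + e2.length ≤ ∑ K ∈ F, cost K.2

lemma eps_move {Sub : List ℕ → Prop} {M L} {e1 e2 : List ℕ} (h1 : Sub e1) (h2 : Sub e2)
    (F : Finset Walk) (hF : F.Nonempty)
    (h : ∀ K ∈ F, K ∈ L ∧ ∃ w, Vtx K w ∧ (w <+: e1 ++ e2 ∨ w <:+ e1 ++ e2))
    (hc : e1.length + e2.length ≤ ∑ K ∈ F, cost K.2) : Move Sub M L := by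
  have e : zw e1 0 e2 = (e1 ++ e2).map some ++ List.replicate (e1 ++ e2).length none := by
    simp [zw]
  refine ⟨[], e1, 0, e2, Vtx.start _, h1, h2, Nat.zero_le _, ?_, F, hF, fun K hK => ?_, hc⟩
  · simp only [Closed, e, run_append, run_ups, run_downs]
    simp
  · obtain ⟨h3, w, h4, h5⟩ := h K hK
    refine ⟨h3, w, h4, ?_⟩
    rw [e]
    generalize e1 ++ e2 = E at h5
    rcases h5 with ⟨r, rfl⟩ | ⟨r, rfl⟩
    · exact ⟨w.map some, r.map some ++ List.replicate (w ++ r).length none, by simp, by simp⟩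
    · exact ⟨(r ++ w).map some ++ List.replicate r.length none, List.replicate w.length none,
        by simp, by simp only [run_append, run_ups, run_downs]; simp⟩

lemma box_move {Sub : List ℕ → Prop} (hinf : ∀ w w', Sub w → w' <:+: w → Sub w') {M L}
    {K : Walk} (hK : K ∈ L) {ω : ℤ → ℕ} {p a b ya yb : ℤ} (hper : Per ω p)
    (hpc : p ≤ cost K.2) (hab : a ≤ b) (hz : Vtx ([], M) (word ω a b)) (hy : Vtx K (word ω ya yb))
    (hs : Sub (word ω ya yb)) (ht : ya + p ≤ yb) (h1 : a ≤ ya) (h2 : ya ≤ a + p) (h3 : b ≤ yb)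
    (h4 : yb ≤ b + p) : Move Sub M L := by
  have l1 := length_word (ω := ω) h3
  have l2 := length_word (ω := ω) h4
  have r1 : run (word ω a b) ((word ω b yb).map some ++ List.replicate (ya - a).toNat none) =
      word ω ya yb := by
    rw [run_append, run_ups, run_downs, word_append hab h3, word_drop h1 (by omega)]
  refine ⟨word ω a b, word ω b yb, (ya - a).toNat, word ω yb (b + p), hz,
    hinf _ _ hs (word_isInfix (by omega) h3 le_rfl), hinf _ _ hs ?_, by omega, ?_, {K},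
    singleton_nonempty _, ?_, by simp only [sum_singleton]; omega⟩
  · have := hper.word (a := yb - p) (b := b) (by omega)
    rw [sub_add_cancel] at this
    rw [this]
    exact word_isInfix (by omega) (by omega) h3
  · unfold Closed zw
    simp only
    rw [run_append, run_append, r1, run_ups, run_downs, word_append (by omega) h4,
      show (word ω b yb).length + (word ω yb (b + p)).length - (ya - a).toNat =
        (a + p - ya).toNat by omega, word_drop h2 (by omega), hper.word hab]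
  · intro K' hK'
    rw [mem_singleton.1 hK']
    exact ⟨hK, _, hy, _, _, by unfold zw; rw [List.append_assoc], r1.symm⟩

theorem exists_move {Sub : List ℕ → Prop} (hinf : ∀ w w', Sub w → w' <:+: w → Sub w')
    (Lm : ℕ) (hLm : ∀ w, Sub w → w.length ≤ Lm) {GA : List ℕ → Option ℕ → Prop}
    (hGS : ∀ w x, GA w x → Sub w)
    (hcon : ∀ (ω : ℤ → ℕ) (p a b : ℤ), 0 < p → Per ω p → a + p ≤ b →
      GA (word ω a b) (some (ω b)) → ∃ a' b', a' ≤ a ∧ b - p < b' ∧ b' ≤ b ∧
        ((a' = a ∧ GA (word ω a' b') none) ∨ ∃ c, c ≠ ω b' ∧ GA (word ω a' b') (some c)))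
    {M : List (Option ℕ)} {L : List Walk}
    (hL : ∀ K ∈ L, Closed K ∧ K.2 ≠ [] ∧ ∀ w x, Arc K w x → GA w x)
    (hcov : ∀ w x, GA w x → Vtx ([], M) w ∨ ∃ K ∈ L, Arc K w x)
    {s : List ℕ} (hmax : ∀ w, Sub w → s <:+: w → w.length ≤ s.length) (hs : GA s none)
    (hsM : ¬ Vtx ([], M) s) : Move Sub M L := by
  by_contra hno
  have sub0 : Sub [] := hinf _ _ (hGS _ _ hs) List.nil_infix
  have vsub : ∀ K ∈ L, ∀ w, Vtx K w → Sub w := fun K hK w hw => by
    obtain ⟨x, hx⟩ := hw.arc (hL K hK).1 (hL K hK).2.1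
    exact hGS _ _ ((hL K hK).2.2 _ _ hx)
  have tall : ∀ K ∈ L, ∀ w, Vtx K w → cost K.2 < w.length := fun K hK w hw => by
    by_contra h
    exact hno (eps_move (vsub K hK w hw) sub0 {K} (singleton_nonempty _)
      (fun K' hK' => by rw [mem_singleton.1 hK']; exact ⟨hK, w, hw, Or.inl (by simp)⟩)
      (by simpa using h))
  have vne : ∀ K ∈ L, ∀ w, Vtx K w → w ≠ [] := fun K hK w hw h => by
    have := tall K hK w hw
    simp [h] at this
  have cpos : ∀ K ∈ L, 0 < cost K.2 := fun K hK =>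
    cost_pos (hL K hK).1 (hL K hK).2.1 (vne K hK _ (Vtx.start K))
  have hAl : ∀ K ∈ L, ∃ ω, Al K ω := fun K hK =>
    exists_Al (hL K hK).1 (cpos K hK) fun w hw => (tall K hK w hw).le
  obtain ⟨K0, hK0, harc0⟩ := (hcov _ _ hs).resolve_left hsM
  obtain ⟨ω, hω⟩ := hAl K0 hK0
  have hex : ∃ p : ℕ, 0 < p ∧ Per ω p := ⟨_, cpos K0 hK0, hω.1⟩
  classical
  obtain ⟨p, hp, hper, hmin⟩ : ∃ p : ℤ, 0 < p ∧ Per ω p ∧ ∀ K ∈ L, Al K ω → p ≤ cost K.2 :=
    ⟨Nat.find hex, by exact_mod_cast (Nat.find_spec hex).1, (Nat.find_spec hex).2,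
      fun K hK h => by exact_mod_cast Nat.find_min' hex ⟨cpos K hK, h.1⟩⟩
  have tallp : ∀ K ∈ L, ∀ (ω' : ℤ → ℕ) a b, a ≤ b → Vtx K (word ω' a b) →
      a + cost K.2 < b := fun K hK ω' a b hab hv => by
    have := tall K hK _ hv
    have := length_word (ω := ω') hab
    omega
  have nobox : ∀ K ∈ L, Al K ω → ∀ ya yb, ya ≤ yb → Vtx K (word ω ya yb) → ∀ a b, a ≤ b →
      Vtx ([], M) (word ω a b) → a ≤ ya → ya ≤ a + p → b ≤ yb → yb ≤ b + p → False :=
    fun K hK hA ya yb hy hv a b hab hz h1 h2 h3 h4 => by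
      have := tallp K hK _ _ _ hy hv
      have := hmin K hK hA
      exact hno (box_move hinf hK hper (hmin K hK hA) hab hz hv (vsub K hK _ hv) (by omega)
        h1 h2 h3 h4)
  let C : ℤ → ℤ → Prop := fun a b => a ≤ b ∧ Vtx ([], M) (word ω a b) ∧ Sub (word ω a b)
  have Csh : ∀ d, Per ω d → ∀ a b, C a b → C (a + d) (b + d) := fun d hd a b h =>
    ⟨by have := h.1; omega, by rw [hd.word h.1]; exact h.2⟩
  let Below : ℤ → ℤ → Prop := fun ya yb => ∃ a b, C a b ∧ a < ya ∧ yb < b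
  have up : ∀ K ∈ L, Al K ω → ∀ ya yb, ya ≤ yb → Vtx K (word ω ya yb) → ∀ a b, C a b → a < ya →
      yb < b + p → Below ya yb := by
    intro K hK hA ya yb hy hv a b hC h1 h2
    by_cases h3 : yb < b
    · exact ⟨a, b, hC, h1, h3⟩
    · by_cases h4 : ya ≤ a + p
      · exact (nobox K hK hA ya yb hy hv a b hC.1 hC.2.1 h1.le h4 (by omega) h2.le).elim
      · exact ⟨a + p, b + p, Csh p hper a b hC, by omega, h2⟩
  have spreadB : ∀ K ∈ L, Al K ω → ∀ ya yb, ya ≤ yb → Vtx K (word ω ya yb) → Below ya yb →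
      ∀ a b, a ≤ b → Vtx K (word ω a b) → Below a b := by
    intro K hK hA ya yb hy hv hB a b hab hv'
    obtain ⟨a0, b0, h1, h2, a1, b1, h3, h4, h5⟩ := spread (hL K hK).1
      (fun w => ∃ a b, a ≤ b ∧ w = word ω a b ∧ Below a b) (by
        rintro w x harc ⟨a, b, hab, rfl, a1, b1, h3, h4, h5⟩
        cases x with
        | none =>
          have := tallp K hK _ _ _ hab harc.src
          exact ⟨a + 1, b, by omega, word_tail (by omega), a1, b1, h3, by omega, h5⟩
        | some c =>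
          have ht := harc.tgt
          rw [hA.2.2 a b c hab harc, app_some, ← word_succ hab] at ht ⊢
          exact ⟨a, b + 1, by omega, rfl,
            up K hK hA a (b + 1) (by omega) ht a1 b1 h3 h4 (by omega)⟩)
      hv ⟨ya, yb, hy, rfl, hB⟩ hv'
    have := tallp K hK _ _ _ hab hv'
    have := hmin K hK hA
    obtain ⟨h6, h7⟩ := per_of_word_eq hp hper (by omega) h1 h2
    exact ⟨_, _, Csh _ h6.neg _ _ h3, by omega, by omega⟩
  let Fam : Walk → Prop := fun K => K ∈ L ∧ Al K ω ∧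
    ∀ ya yb, ya ≤ yb → Vtx K (word ω ya yb) → ¬ Below ya yb
  have fam0 : Fam K0 := by
    refine ⟨hK0, hω, fun ya yb hy hv hB => ?_⟩
    obtain ⟨a, b, hab, e⟩ := hω.2.1 s harc0.src
    obtain ⟨a1, b1, h1, h2, h3⟩ := spreadB K0 hK0 hω ya yb hy hv hB a b hab (e ▸ harc0.src)
    have := hmax _ h1.2.2 (e ▸ word_isInfix h2.le hab h3.le)
    have l1 := length_word (ω := ω) hab
    have l2 := length_word (ω := ω) h1.1
    rw [e] at this
    omega
  let V : ℤ → ℤ → Prop := fun a b => a ≤ b ∧ ∃ K, Fam K ∧ Vtx K (word ω a b)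
  have Vsh : ∀ d, Per ω d → ∀ a b, V a b → V (a + d) (b + d) := fun d hd a b h =>
    ⟨by have := h.1; omega, by rw [hd.word h.1]; exact h.2⟩
  have Vf : ∀ a b β, V a b → b ≤ β → ∃ a', a ≤ a' ∧ V a' β := by
    rintro a b β ⟨hab, K, hK, hv⟩ hb
    obtain ⟨a', h1, h2, h3⟩ := follow (hL K hK.1).1 (hL K hK.1).2.1 hK.2.1 (vne K hK.1) hab hv hb
    exact ⟨a', h1, h2, K, hK, h3⟩
  have exA : ∀ b, ∃ a, V a b ∧ ∀ a', V a' b → a' ≤ a := by
    intro b
    refine Int.exists_greatest_of_bdd ⟨b, fun a h => h.1⟩ ?_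
    obtain ⟨a0, b0, hab, e⟩ := hω.2.1 s harc0.src
    have h1 := Vsh _ (hper.int_mul (-|b0 - b|)) a0 b0 ⟨hab, K0, fam0, e ▸ harc0.src⟩
    obtain ⟨a', -, h2⟩ := Vf _ _ b h1 (by
      have := le_abs_self (b0 - b)
      have := abs_nonneg (b0 - b)
      nlinarith)
    exact ⟨a', h2⟩
  let X : ℤ → ℤ → Prop := fun a b => a ≤ b ∧ ∃ K ∈ L, ∃ ω', Al K ω' ∧
    word ω' a b = word ω a b ∧ Vtx K (word ω a b) ∧ ω' ≠ ω
  have contact : ∀ a b, V a b → (∀ a', V a' b → a' ≤ a) →
      ∃ a' b', a' ≤ a ∧ b - p < b' ∧ b' ≤ b ∧ X a' b' := by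
    rintro a b ⟨hab, K, hK, hv⟩ hgr
    have t1 := tallp K hK.1 _ _ _ hab hv
    have t2 := hmin K hK.1 hK.2.1
    obtain ⟨x, hx⟩ := hv.arc (hL K hK.1).1 (hL K hK.1).2.1
    cases x with
    | none =>
      have ht := hx.tgt
      rw [app_none, word_tail (by omega)] at ht
      have := hgr (a + 1) ⟨by omega, K, hK, ht⟩
      omega
    | some c =>
      have hga := (hL K hK.1).2.2 _ _ hx
      rw [hK.2.1.2.2 a b c hab hx] at hga
      obtain ⟨a', b', h1, h2, h3, h4⟩ := hcon ω p a b hp hper (by omega) hga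
      have hab' : a' ≤ b' := by omega
      obtain ⟨x, hx1, hx2⟩ : ∃ x, GA (word ω a' b') x ∧
          ((a' = a ∧ x = none) ∨ ∃ c, c ≠ ω b' ∧ x = some c) := by
        rcases h4 with ⟨h4, h5⟩ | ⟨c, h4, h5⟩
        · exact ⟨_, h5, Or.inl ⟨h4, rfl⟩⟩
        · exact ⟨_, h5, Or.inr ⟨c, h4, rfl⟩⟩
      refine ⟨a', b', h1, h2, h3, hab', ?_⟩
      rcases hcov _ _ hx1 with hM | ⟨K', hK', harc⟩
      · exfalso
        by_cases h5 : a ≤ a' + p
        · exact nobox K hK.1 hK.2.1 a b hab hv a' b' hab' hM h1 h5 h3 (by omega)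
        · exact hK.2.2 a b hab hv ⟨_, _, Csh p hper a' b' ⟨hab', hM, hGS _ _ hx1⟩, by omega,
            by omega⟩
      · obtain ⟨ω0, h0⟩ := hAl K' hK'
        obtain ⟨ω', h5, h6⟩ := h0.at hab' harc.src
        refine ⟨K', hK', ω', h5, h6, harc.src, ?_⟩
        rintro rfl
        rcases hx2 with ⟨rfl, rfl⟩ | ⟨c, hc, rfl⟩
        · have fam' : Fam K' := by
            refine ⟨hK', h5, fun ya yb hy hv' hB => ?_⟩
            obtain ⟨a1, b1, h7, h8, h9⟩ := spreadB K' hK' h5 ya yb hy hv' hB a' b' hab' harc.src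
            exact hK.2.2 a' b hab hv (up K hK.1 hK.2.1 a' b hab hv a1 b1 h7 h8 (by omega))
          have ht := harc.tgt
          rw [app_none, word_tail (by omega)] at ht
          obtain ⟨a'', h7, h8⟩ := Vf (a' + 1) b' b ⟨by omega, K', fam', ht⟩ h3
          have := hgr a'' h8
          omega
        · exact hc (h5.2.2 a' b' c hab' harc)
  obtain ⟨H, ⟨a1, b1, hX1, rfl⟩, hH⟩ := Int.exists_greatest_of_bdd
    (P := fun H => ∃ a b, X a b ∧ H = b - a) ⟨Lm, by
      rintro _ ⟨a, b, ⟨hab, K, hK, -, -, -, hv, -⟩, rfl⟩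
      have := hLm _ (vsub K hK _ hv)
      have := length_word (ω := ω) hab
      omega⟩ (by
      obtain ⟨a, h1, h2⟩ := exA 0
      obtain ⟨a', b', -, -, -, h3⟩ := contact a 0 h1 h2
      exact ⟨_, a', b', h3, rfl⟩)
  obtain ⟨hab1, K1, hK1, ω1, hA1, hw1, hv1, hne1⟩ := hX1
  have c1 : (0 : ℤ) < cost K1.2 := by exact_mod_cast cpos K1 hK1
  have ag1 : ∀ i, a1 ≤ i → i < b1 → ω1 i = ω i := fun i h1 h2 => by
    simpa using (eq_of_word_eq hab1 hab1 hw1).2 i h1 h2
  obtain ⟨β, ⟨hβ1, hβ2⟩, hβ3⟩ := Int.exists_least_of_bdd (P := fun j => b1 ≤ j ∧ ω1 j ≠ ω j)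
    ⟨b1, fun _ h => h.1⟩ (by
      by_contra h
      push Not at h
      exact hne1 (eq_of_half (a := b1) c1 hp hA1.1 hper h))
  have ag : ∀ i, a1 ≤ i → i < β → ω1 i = ω i := fun i h1 h2 => by
    by_cases h3 : i < b1
    · exact ag1 i h1 h3
    · by_contra h4
      have := hβ3 i ⟨by omega, h4⟩
      omega
  have fw1 : β < a1 + cost K1.2 + p := by
    by_contra h
    exact hβ2 (agree_of_per (a := a1) c1 hp hA1.1 hper (fun i h1 h2 => ag i h1 (by omega)) β
      (by omega))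
  obtain ⟨a'', h1, h2, h3⟩ := follow (hL K1 hK1).1 (hL K1 hK1).2.1 hA1 (vne K1 hK1) hab1
    (hw1 ▸ hv1) hβ1
  have e'' : word ω1 a'' β = word ω a'' β :=
    word_ext h2 rfl fun i h4 h5 => by simpa using ag i (by omega) h5
  rw [e''] at h3
  have nofam : ∀ K' ∈ L, ∀ ω', Al K' ω' → ∀ a b, a ≤ b → word ω' a b = word ω a b →
      Vtx K' (word ω a b) → ω' ≠ ω → ¬ Fam K' := by
    intro K' hK' ω' hA' a b hab hw hv hne hF
    have := tallp K' hK' _ _ _ hab hv
    refine hne (eq_of_per (a := a) (by exact_mod_cast cpos K' hK') hA'.1 hF.2.1.1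
      fun i h4 h5 => ?_)
    simpa using (eq_of_word_eq hab hab hw).2 i h4 (by omega)
  obtain ⟨a, ⟨hab, K, hK, hv⟩, hgr⟩ := exA β
  have hKK1 : K ≠ K1 := fun e => nofam K1 hK1 ω1 hA1 a1 b1 hab1 hw1 hv1 hne1 (e ▸ hK)
  have t1 := tallp K hK.1 _ _ _ hab hv
  have t2 := hmin K hK.1 hK.2.1
  have sfx : ∀ x y, x ≤ y → y ≤ β → word ω y β <:+ word ω x β := fun x y h4 h5 =>
    ⟨_, word_append h4 h5⟩
  by_cases hcase : a'' ≤ a
  · refine hno (eps_move (vsub K1 hK1 _ h3) sub0 {K, K1} (insert_nonempty _ _) ?_ ?_)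
    · intro K' hK'
      rcases mem_insert.1 hK' with rfl | hK'
      · exact ⟨hK.1, _, hv, Or.inr (by simpa using sfx _ _ hcase hab)⟩
      · rw [mem_singleton.1 hK']
        exact ⟨hK1, _, h3, Or.inl (by simp)⟩
    · rw [sum_pair hKK1]
      have := length_word (ω := ω) h2
      simp only [List.length_nil]
      omega
  · obtain ⟨a2, b2, h4, h5, h6, hX2⟩ := contact (a + p) (β + p)
      (Vsh p hper _ _ ⟨hab, K, hK, hv⟩) fun a' h => by
        have := Vsh _ hper.neg _ _ h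
        rw [add_neg_cancel_right] at this
        have := hgr _ this
        omega
    have hh := hH _ ⟨a2, b2, hX2, rfl⟩
    obtain ⟨hab2, K2, hK2, ω2, hA2, hw2, hv2, hne2⟩ := hX2
    have c2 : (0 : ℤ) < cost K2.2 := by exact_mod_cast cpos K2 hK2
    have ag2 : ∀ i, a2 ≤ i → i < b2 → ω2 i = ω i := fun i h1 h2 => by
      simpa using (eq_of_word_eq hab2 hab2 hw2).2 i h1 h2
    have hKK2 : K ≠ K2 := fun e => nofam K2 hK2 ω2 hA2 a2 b2 hab2 hw2 hv2 hne2 (e ▸ hK)
    have dis : ω1 β ≠ ω2 β := by rw [ag2 β (by omega) (by omega)]; exact hβ2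
    have ag12 : ∀ i, a2 ≤ i → i < β → ω1 i = ω2 i := fun i h7 h8 => by
      rw [ag i (by omega) h8, ag2 i h7 (by omega)]
    have e2 : word ω (a2 - p) (b2 - p) = word ω a2 b2 := hper.neg.word hab2
    have eE : word ω (a2 - p) a ++ word ω a β = word ω (a2 - p) β := word_append (by omega) hab
    have l1 := length_word (ω := ω) (a := a2 - p) (b := a) (by omega)
    have l2 := length_word (ω := ω) hab
    refine hno (eps_move (e1 := word ω (a2 - p) a) (e2 := word ω a β)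
      (hinf _ _ (vsub K2 hK2 _ hv2) (e2 ▸ word_isInfix le_rfl (by omega) (by omega)))
      (vsub K hK.1 _ hv) {K, K1, K2} (insert_nonempty _ _) ?_ ?_)
    · intro K' hK'
      rw [eE]
      simp only [mem_insert, mem_singleton] at hK'
      rcases hK' with rfl | rfl | rfl
      · exact ⟨hK.1, _, hv, Or.inr (sfx _ _ (by omega) hab)⟩
      · exact ⟨hK1, _, h3, Or.inr (sfx _ _ (by omega) h2)⟩
      · exact ⟨hK2, _, hv2, Or.inl ⟨word ω (b2 - p) β, by
          rw [← e2]; exact word_append (by omega) (by omega)⟩⟩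
    · rw [sum_insert (by simp [hKK1, hKK2])]
      by_cases h12 : K1 = K2
      · subst h12
        have : β < a2 + cost K1.2 := by
          by_contra h
          exact dis (congrFun (eq_of_per (a := a2) c1 hA1.1 hA2.1
            fun i h7 h8 => ag12 i h7 (by omega)) β)
        simp only [mem_singleton, insert_eq_of_mem, sum_singleton]
        omega
      · have : β < a2 + cost K1.2 + cost K2.2 := by
          by_contra h
          exact dis (agree_of_per (a := a2) c1 c2 hA1.1 hA2.1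
            (fun i h7 h8 => ag12 i h7 (by omega)) β (by omega))
        rw [sum_pair h12]
        omega

end Vale.Agent.P333
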