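import Vale.Agent.P333.Count
import Vale.Agent.P333.Move
import Vale.Agent.Lib.PTime.List

/-! The algorithm and its correctness. -/

namespace Vale.Agent.P333

open Finset

/-- one step of the decomposition of the arcs into closed walks -/
def dstep (st : List Walk × List Walk) : List Walk × List Walk :=
  PT.lcas st.2 st fun P rest =>
    if run P.1 P.2 = P.1 then (P :: st.1, rest) else
      (st.1, (P.1, P.2 ++ (rest.getD (rest.findIdx fun Q => decide (Q.1 = run P.1 P.2))
          ([], [])).2) ::
        (rest.take (rest.findIdx fun Q => decide (Q.1 = run P.1 P.2)) ++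
          rest.drop ((rest.findIdx fun Q => decide (Q.1 = run P.1 P.2)) + 1)))

def vts (K : Walk) : List (List ℕ) :=
  (List.range (K.2.length + 1)).map fun i => run K.1 (K.2.take i)

def touch (Z K : Walk) : Bool := (vts K).any fun w => decide (w ∈ vts Z)

def cands (U : List (List ℕ)) (M : List (Option ℕ)) : List Walk :=
  (vts ([], M)).flatMap fun z => U.flatMap fun e1 => U.flatMap fun e2 =>
    (List.range (e1.length + e2.length + 1)).map fun k => (z, zw e1 k e2)

def good (L : List Walk) (Z : Walk) : Bool :=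
  decide (run Z.1 Z.2 = Z.1 ∧ L.any (fun K => touch Z K) = true ∧
    cost Z.2 ≤ ((L.filter fun K => touch Z K).map fun K => cost K.2).sum)

/-- one linking move -/
def mstep (U : List (List ℕ)) (st : List (Option ℕ) × List Walk) : List (Option ℕ) × List Walk :=
  ((cands U st.1).find? fun Z => good st.2 Z).elim st fun Z =>
    ((st.2.filter fun K => touch Z K).foldl merge (merge st.1 Z),
      st.2.filter fun K => !touch Z K)

def decomp (l : List Walk) : List Walk := (dstep^[l.length] ([], l)).1

def link (U : List (List ℕ)) (L : List Walk) : List (Option ℕ) :=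
  ((mstep U)^[L.length] ([], L)).1

/-- the approximation algorithm -/
def scs (S : List (List ℕ)) : List ℕ := ups (link (subs S) (decomp (arcl S (cnt S))))

lemma arc_append {v s t w x} :
    Arc (v, s ++ t) w x ↔ Arc (v, s) w x ∨ Arc (run v s, t) w x := by
  constructor
  · rintro ⟨a, b, h, rfl⟩
    rcases List.append_eq_append_iff.1 h with ⟨c, h1, h2⟩ | ⟨c, h1, h2⟩
    · exact Or.inr ⟨c, b, h2, by simp [h1]⟩
    · cases c with
      | nil => exact Or.inr ⟨[], b, by simpa using h2.symm, by simp [h1]⟩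
      | cons y c =>
        simp only [List.cons_append, List.cons.injEq] at h2
        exact Or.inl ⟨a, c, by simp [h1, h2.1], rfl⟩
  · rintro (⟨a, b, h, rfl⟩ | ⟨a, b, h, rfl⟩)
    · exact ⟨a, b ++ t, by simp only at h; simp [h], rfl⟩
    · exact ⟨s ++ a, b, by simp only at h; simp [h], by simp⟩

structure DInv (G : List ℕ → Option ℕ → Prop) (C : ℕ) (st : List Walk × List Walk) : Prop where
  cl : ∀ K ∈ st.1, Closed K
  ar : ∀ K, K ∈ st.1 ∨ K ∈ st.2 → K.2 ≠ [] ∧ ∀ w x, Arc K w x → G w x
  cov : ∀ w x, G w x → ∃ K, (K ∈ st.1 ∨ K ∈ st.2) ∧ Arc K w x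
  co : (st.1.map fun K => cost K.2).sum + (st.2.map fun K => cost K.2).sum ≤ C
  bal : (st.2.map fun K => K.1).Perm (st.2.map fun K => run K.1 K.2)

lemma dstep_inv {G C st} (h : DInv G C st) :
    DInv G C (dstep st) ∧ (dstep st).2.length = st.2.length - 1 := by
  obtain ⟨D, todo⟩ := st
  cases todo with
  | nil => exact ⟨h, rfl⟩
  | cons P rest =>
    obtain ⟨h1, h2, h3, h4, h5⟩ := h
    simp only [dstep, PT.lcas_cons]
    split_ifs with hc
    · refine ⟨⟨?_, fun K hK => h2 K ?_, fun w x hx => ?_, ?_, ?_⟩, by simp⟩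
      · intro K hK
        rcases List.mem_cons.1 hK with rfl | hK
        · exact hc
        · exact h1 K hK
      · simp only [List.mem_cons] at hK ⊢; tauto
      · obtain ⟨K, hK, h⟩ := h3 w x hx
        exact ⟨K, by simp only [List.mem_cons] at hK ⊢; tauto, h⟩
      · simp only [List.map_cons, List.sum_cons] at h4 ⊢; omega
      · simp only [List.map_cons, hc] at h5
        exact h5.cons_inv
    · have hex : ∃ Q ∈ rest, decide (Q.1 = run P.1 P.2) = true := by
        have := h5.symm.subset (a := run P.1 P.2) (by simp)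
        simp only [List.map_cons, List.mem_cons, List.mem_map] at this
        rcases this with h | ⟨Q, h6, h7⟩
        · exact absurd h hc
        · exact ⟨Q, h6, by simpa using h7⟩
      have hi := List.findIdx_lt_length_of_exists hex
      have hQ := List.findIdx_getElem (w := hi)
      set i := rest.findIdx fun Q => decide (Q.1 = run P.1 P.2)
      rw [List.getD_eq_getElem _ _ hi]
      have hr : rest = rest.take i ++ rest[i] :: rest.drop (i + 1) := by simp
      generalize rest[i] = Q at hQ hr ⊢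
      generalize rest.take i = a at hr ⊢
      generalize rest.drop (i + 1) = b at hr ⊢
      subst hr
      obtain ⟨v, s⟩ := P
      obtain ⟨v', t⟩ := Q
      simp only [decide_eq_true_eq] at hQ
      subst hQ
      refine ⟨⟨h1, fun K hK => ?_, fun w x hx => ?_, ?_, ?_⟩, by simp; omega⟩
      · simp only [List.mem_cons, List.mem_append] at hK h2
        rcases hK with hK | rfl | hK
        · exact h2 K (Or.inl hK)
        · refine ⟨by simp [(h2 (v, s) (by simp)).1], fun w x hx => ?_⟩
          rcases arc_append.1 hx with hx | hx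
          · exact (h2 _ (by simp)).2 _ _ hx
          · exact (h2 _ (by simp)).2 _ _ hx
        · exact h2 K (by tauto)
      · obtain ⟨K, hK, h⟩ := h3 w x hx
        simp only [List.mem_cons, List.mem_append] at hK ⊢
        rcases hK with hK | rfl | hK | rfl | hK
        · exact ⟨K, by tauto, h⟩
        · exact ⟨_, by tauto, arc_append.2 (Or.inl h)⟩
        · exact ⟨K, by tauto, h⟩
        · exact ⟨_, by tauto, arc_append.2 (Or.inr h)⟩
        · exact ⟨K, by tauto, h⟩
      · simp only [List.map_cons, List.sum_cons, List.map_append, List.sum_append,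
          cost_append] at h4 ⊢
        omega
      · rw [List.perm_iff_count] at h5 ⊢
        intro y
        have := h5 y
        simp only [List.map_cons, List.map_append, List.count_cons, List.count_append,
          run_append] at this ⊢
        omega

structure MInv (G : List ℕ → Option ℕ → Prop) (C : ℕ) (st : List (Option ℕ) × List Walk) :
    Prop where
  ar : ∀ K ∈ st.2, Closed K ∧ K.2 ≠ [] ∧ ∀ w x, Arc K w x → G w x
  cov : ∀ w x, G w x → Vtx ([], st.1) w ∨ ∃ K ∈ st.2, Arc K w x
  co : cost st.1 + 2 * (st.2.map fun K => cost K.2).sum ≤ 2 * C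

lemma decomp_inv {G C l} (h : DInv G C ([], l)) : MInv G C ([], decomp l) := by
  have key : ∀ k, DInv G C (dstep^[k] ([], l)) ∧ (dstep^[k] ([], l)).2.length = l.length - k := by
    intro k
    induction k with
    | zero => exact ⟨h, rfl⟩
    | succ k ih =>
      rw [Function.iterate_succ_apply']
      obtain ⟨h1, h2⟩ := dstep_inv ih.1
      exact ⟨h1, by rw [h2, ih.2]; omega⟩
  obtain ⟨⟨h1, h2, h3, h4, -⟩, h6⟩ := key l.length
  have h7 : (dstep^[l.length] ([], l)).2 = [] := List.length_eq_zero_iff.1 (by omega)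
  rw [h7] at h2 h3 h4
  refine ⟨fun K hK => ⟨h1 K hK, h2 K (Or.inl hK)⟩, fun w x hx => ?_, ?_⟩
  · obtain ⟨K, hK, h⟩ := h3 w x hx
    exact Or.inr ⟨K, by simpa [decomp] using hK, h⟩
  · simp only [decomp, cost_nil] at h4 ⊢
    omega

lemma mem_vts {K w} : w ∈ vts K ↔ Vtx K w := by
  simp only [vts, List.mem_map, List.mem_range]
  constructor
  · rintro ⟨i, -, rfl⟩
    exact ⟨_, _, (List.take_append_drop i _).symm, rfl⟩
  · rintro ⟨s, t, h, rfl⟩
    exact ⟨s.length, by simp [h], by simp [h]⟩

lemma touch_iff {Z K} : touch Z K = true ↔ ∃ w, Vtx K w ∧ Vtx Z w := by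
  simp [touch, mem_vts]

lemma foldl_merge (l : List Walk) (M : List (Option ℕ))
    (h : ∀ K ∈ l, Closed K ∧ ∃ w, Vtx ([], M) w ∧ Vtx K w) :
    (∀ w, Vtx ([], M) w → Vtx ([], l.foldl merge M) w) ∧
      (∀ K ∈ l, ∀ w, Vtx K w → Vtx ([], l.foldl merge M) w) ∧
      cost (l.foldl merge M) ≤ cost M + (l.map fun K => cost K.2).sum := by
  induction l generalizing M with
  | nil => simp
  | cons K l ih =>
    have hK := h K List.mem_cons_self
    obtain ⟨h1, h2, h3⟩ := ih (merge M K) fun K' hK' => by
      obtain ⟨a, w, b, c⟩ := h K' (List.mem_cons_of_mem _ hK')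
      exact ⟨a, w, merge_left hK.1 b, c⟩
    refine ⟨fun w hw => h1 w (merge_left hK.1 hw), fun K' hK' w hw => ?_, ?_⟩
    · rcases List.mem_cons.1 hK' with rfl | hK'
      · exact h1 w (merge_right hK.1 hK.2 hw)
      · exact h2 K' hK' w hw
    · have := cost_merge M K
      simp only [List.foldl_cons, List.map_cons, List.sum_cons]
      omega

lemma sum_filter_add {α : Type} (l : List α) (p : α → Bool) (g : α → ℕ) :
    ((l.filter p).map g).sum + ((l.filter fun a => !p a).map g).sum = (l.map g).sum := by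
  induction l with
  | nil => simp
  | cons a l ih => cases h : p a <;> simp [h] <;> omega

lemma mstep_cases (U st) :
    (mstep U st = st ∧ ∀ Z ∈ cands U st.1, ¬ good st.2 Z = true) ∨ ∃ Z ∈ cands U st.1,
      good st.2 Z = true ∧ mstep U st =
        ((st.2.filter fun K => touch Z K).foldl merge (merge st.1 Z),
          st.2.filter fun K => !touch Z K) := by
  unfold mstep
  cases h : (cands U st.1).find? fun Z => good st.2 Z with
  | none => exact Or.inl ⟨rfl, List.find?_eq_none.1 h⟩
  | some Z => exact Or.inr ⟨Z, List.mem_of_find?_eq_some h, List.find?_some h, rfl⟩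

lemma mstep_inv {G C U st} (h : MInv G C st) : MInv G C (mstep U st) ∧
    ((mstep U st = st ∧ ∀ Z ∈ cands U st.1, ¬ good st.2 Z = true) ∨
      (mstep U st).2.length < st.2.length) := by
  rcases mstep_cases U st with h0 | ⟨Z, hZ, hg, e⟩
  · exact ⟨h0.1.symm ▸ h, Or.inl h0⟩
  · rw [e]
    obtain ⟨M, L⟩ := st
    obtain ⟨h1, h2, h3⟩ := h
    obtain ⟨g1, g2, g3⟩ := of_decide_eq_true hg
    have hz : Vtx ([], M) Z.1 := by
      simp only [cands, List.mem_flatMap, List.mem_map] at hZ
      obtain ⟨z, hz, -, -, -, -, -, -, rfl⟩ := hZ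
      exact mem_vts.1 hz
    obtain ⟨f1, f2, f3⟩ := foldl_merge (L.filter fun K => touch Z K) (merge M Z) fun K hK => by
      obtain ⟨a, b⟩ := List.mem_filter.1 hK
      obtain ⟨w, c, d⟩ := touch_iff.1 b
      exact ⟨(h1 K a).1, w, merge_right g1 ⟨_, hz, Vtx.start Z⟩ d, c⟩
    refine ⟨⟨fun K hK => h1 K (List.mem_filter.1 hK).1, fun w x hx => ?_, ?_⟩, Or.inr ?_⟩
    · rcases h2 w x hx with hv | ⟨K, hK, harc⟩
      · exact Or.inl (f1 w (merge_left g1 hv))
      · by_cases ht : touch Z K = true
        · exact Or.inl (f2 K (List.mem_filter.2 ⟨hK, ht⟩) w harc.src)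
        · exact Or.inr ⟨K, List.mem_filter.2 ⟨hK, by simpa using ht⟩, harc⟩
    · have := cost_merge M Z
      have := sum_filter_add L (fun K => touch Z K) fun K => cost K.2
      simp only at h3 g3 ⊢
      omega
    · obtain ⟨K, hK, ht⟩ := List.any_eq_true.1 g2
      exact List.length_filter_lt_length_iff_exists.2 ⟨K, hK, by simp [ht]⟩

lemma good_of_move {U M L} (h : Move (· ∈ U) M L) : ∃ Z ∈ cands U M, good L Z = true := by
  obtain ⟨z, e1, k, e2, h1, h2, h3, h4, h5, F, ⟨K, hK⟩, h6, h7⟩ := h
  refine ⟨(z, zw e1 k e2), ?_, decide_eq_true ⟨h5, ?_, ?_⟩⟩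
  · simp only [cands, List.mem_flatMap, List.mem_map, List.mem_range]
    exact ⟨z, mem_vts.2 h1, e1, h2, e2, h3, k, by omega, rfl⟩
  · exact List.any_eq_true.2 ⟨K, (h6 K hK).1, touch_iff.2 (h6 K hK).2⟩
  · have e : cost (zw e1 k e2) = e1.length + e2.length := by simp [zw]
    rw [e]
    refine h7.trans ?_
    have hs : F.toList.Subperm (L.filter fun K => touch (z, zw e1 k e2) K) :=
      List.subperm_of_subset F.nodup_toList fun K hK =>
        List.mem_filter.2 ⟨(h6 K (mem_toList.1 hK)).1, touch_iff.2 (h6 K (mem_toList.1 hK)).2⟩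
    obtain ⟨l, hl1, hl2⟩ := hs
    rw [← Finset.sum_map_toList, ← (hl1.map _).sum_eq]
    exact (hl2.map _).sum_le_sum fun _ _ => Nat.zero_le _

lemma link_inv {G C U L} (h : MInv G C ([], L)) :
    ∃ L', MInv G C (link U L, L') ∧ ¬ Move (· ∈ U) (link U L) L' := by
  have key : ∀ k, MInv G C ((mstep U)^[k] ([], L)) ∧
      ((∀ Z ∈ cands U ((mstep U)^[k] ([], L)).1, ¬ good ((mstep U)^[k] ([], L)).2 Z = true) ∨
        ((mstep U)^[k] ([], L)).2.length + k ≤ L.length) := by
    intro k
    induction k with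
    | zero => exact ⟨h, Or.inr le_rfl⟩
    | succ k ih =>
      rw [Function.iterate_succ_apply']
      obtain ⟨h1, h2⟩ := mstep_inv (U := U) ih.1
      refine ⟨h1, ?_⟩
      rcases h2 with h2 | h2
      · rw [h2.1]; exact Or.inl h2.2
      · rcases ih.2 with h3 | h3
        · rcases mstep_cases U ((mstep U)^[k] ([], L)) with h4 | ⟨Z, hZ, hg, -⟩
          · rw [h4.1]; exact Or.inl h3
          · exact absurd hg (h3 Z hZ)
        · exact Or.inr (by omega)
  obtain ⟨h1, h2⟩ := key L.length
  refine ⟨_, h1, fun hm => ?_⟩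
  rcases h2 with h2 | h2
  · obtain ⟨Z, hZ, hg⟩ := good_of_move hm
    exact h2 Z hZ hg
  · obtain ⟨z, e1, k, e2, -, -, -, -, -, F, ⟨K, hK⟩, h6, -⟩ := hm
    have := List.length_pos_of_mem (h6 K hK).1
    omega

lemma arcl_inv {S T} (hT : ∀ s ∈ S, s <:+: T) : DInv (GA S) T.length ([], arcl S (cnt S)) := by
  refine ⟨by simp, fun K hK => ?_, fun w x hx => ?_, by simpa using cost_arcl hT, balance_arcl⟩
  · obtain ⟨w, x, rfl, h⟩ := mem_arcl.1 (by simpa using hK)
    refine ⟨by simp, ?_⟩
    rintro w' x' ⟨s, t, h1, rfl⟩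
    cases s with
    | nil =>
      simp only [List.nil_append, List.cons.injEq] at h1
      rw [← h1.1]; exact h
    | cons y s => simp at h1
  · exact ⟨(w, [x]), Or.inr (mem_arcl.2 ⟨w, x, rfl, hx⟩), [], [], rfl, rfl⟩

theorem scs_length {S T} (hT : ∀ s ∈ S, s <:+: T) : (scs S).length ≤ 2 * T.length := by
  obtain ⟨L', h, -⟩ := link_inv (U := subs S) (decomp_inv (arcl_inv hT))
  have := h.co
  unfold scs
  simp only [cost] at this
  omega

theorem scs_super {S : List (List ℕ)} : ∀ s ∈ S, s <:+: scs S := by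
  intro s hs
  obtain ⟨L', h, hno⟩ := link_inv (U := subs S) (decomp_inv (arcl_inv (S := S) super_flatten))
  obtain ⟨s', hs', hmax⟩ := Finset.exists_max_image (S.toFinset.filter fun t => s <:+: t)
    List.length ⟨s, by simp [hs]⟩
  simp only [mem_filter, List.mem_toFinset] at hs' hmax
  refine hs'.2.trans ?_
  by_cases h0 : s' = []
  · rw [h0]; exact List.nil_infix
  have hm : ∀ w ∈ subs S, s' <:+: w → w.length ≤ s'.length := by
    intro w hw h1
    rcases mem_subs.1 hw with rfl | ⟨t, ht, h2⟩
    · simp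
    · exact h2.length_le.trans (hmax t ⟨ht, hs'.2.trans (h1.trans h2)⟩)
  by_contra hc
  exact hno (exists_move subs_inf (bnd S) (fun w hw => (length_lt_bnd hw).le) GA_sub GA_contact
    h.ar h.cov hm (GA_max hs'.1 h0 hm) fun hv => hc hv.isInfix)

end Vale.Agent.P333
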