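import Vale.Agent.P333.Word

/-! Walks in the hierarchical graph. -/

namespace Vale.Agent.P333

/-- one step: append a letter or delete the first letter -/
def app (w : List ℕ) (s : Option ℕ) : List ℕ := s.elim w.tail fun c => w ++ [c]

/-- the end of a walk -/
def run (v : List ℕ) (st : List (Option ℕ)) : List ℕ := st.foldl app v

/-- the appended letters -/
def ups (st : List (Option ℕ)) : List ℕ := st.filterMap id

/-- number of appended letters -/
def cost (st : List (Option ℕ)) : ℕ := (ups st).length

/-- a start vertex and a list of steps -/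
abbrev Walk := List ℕ × List (Option ℕ)

def Vtx (K : Walk) (w : List ℕ) : Prop := ∃ s t, K.2 = s ++ t ∧ w = run K.1 s

def Arc (K : Walk) (w : List ℕ) (x : Option ℕ) : Prop := ∃ s t, K.2 = s ++ x :: t ∧ w = run K.1 s

def Closed (K : Walk) : Prop := run K.1 K.2 = K.1

@[simp] lemma app_some (w c) : app w (some c) = w ++ [c] := rfl
@[simp] lemma app_none (w) : app w none = w.tail := rfl
@[simp] lemma run_nil (v) : run v [] = v := rfl
@[simp] lemma run_cons (v x t) : run v (x :: t) = run (app v x) t := rfl
@[simp] lemma run_append (v s t) : run v (s ++ t) = run (run v s) t := List.foldl_append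
@[simp] lemma ups_nil : ups [] = [] := rfl
@[simp] lemma ups_some (c t) : ups (some c :: t) = c :: ups t := rfl
@[simp] lemma ups_none (t) : ups (none :: t) = ups t := rfl
@[simp] lemma ups_append (s t) : ups (s ++ t) = ups s ++ ups t := List.filterMap_append
@[simp] lemma cost_append (s t) : cost (s ++ t) = cost s + cost t := by simp [cost]
@[simp] lemma cost_nil : cost [] = 0 := rfl

@[simp] lemma run_ups (w e : List ℕ) : run w (e.map some) = w ++ e := by
  induction e generalizing w with
  | nil => simp
  | cons c e ih => simp [ih]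

@[simp] lemma run_downs (w : List ℕ) (k : ℕ) : run w (List.replicate k none) = w.drop k := by
  induction k generalizing w with
  | zero => simp
  | succ k ih => simp [List.replicate_succ, ih]

@[simp] lemma cost_ups (e : List ℕ) : cost (e.map some) = e.length := by
  induction e with
  | nil => simp
  | cons c e ih => simpa [cost] using ih

@[simp] lemma cost_downs (k : ℕ) : cost (List.replicate k none) = 0 := by
  induction k with
  | zero => simp
  | succ k ih => simpa [cost, List.replicate_succ] using ih

lemma run_isSuffix (v : List ℕ) (s : List (Option ℕ)) : run v s <:+ v ++ ups s := by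
  induction s generalizing v with
  | nil => simp
  | cons x s ih =>
    cases x with
    | none =>
      refine (ih _).trans ?_
      obtain ⟨r, hr⟩ := List.tail_suffix v
      exact ⟨r, by simp [← List.append_assoc, hr]⟩
    | some c => simpa using ih (v ++ [c])

lemma Vtx.isInfix {M w} (h : Vtx ([], M) w) : w <:+: ups M := by
  obtain ⟨s, t, h1, rfl⟩ := h
  simp only at h1
  rw [h1, ups_append]
  exact (run_isSuffix [] s).isInfix.trans (by simpa using (List.prefix_append _ _).isInfix)

lemma Vtx.start (K : Walk) : Vtx K K.1 := ⟨[], K.2, rfl, rfl⟩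

lemma Arc.src {K w x} (h : Arc K w x) : Vtx K w := by
  obtain ⟨s, t, h1, h2⟩ := h
  exact ⟨s, _, h1, h2⟩

lemma Arc.tgt {K w x} (h : Arc K w x) : Vtx K (app w x) := by
  obtain ⟨s, t, h1, h2⟩ := h
  exact ⟨s ++ [x], t, by simp [h1], by simp [h2]⟩

lemma Vtx.arc {K w} (h : Vtx K w) (hc : Closed K) (hne : K.2 ≠ []) : ∃ x, Arc K w x := by
  obtain ⟨s, t, h1, h2⟩ := h
  cases t with
  | cons x t => exact ⟨x, s, t, h1, h2⟩
  | nil =>
    obtain ⟨x, t, h3⟩ := List.exists_cons_of_ne_nil hne
    refine ⟨x, [], t, h3, ?_⟩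
    rw [List.append_nil] at h1
    rw [h2, ← h1, hc, run_nil]

lemma spread {K : Walk} (hc : Closed K) (Q : List ℕ → Prop)
    (hQ : ∀ w x, Arc K w x → Q w → Q (app w x)) {w w'} (h : Vtx K w) (hw : Q w) (h' : Vtx K w') :
    Q w' := by
  have fw : ∀ t s r, K.2 = s ++ t ++ r → Q (run K.1 s) → Q (run K.1 (s ++ t)) := by
    intro t
    induction t with
    | nil => simp
    | cons x t ih =>
      intro s r h1 h2
      have := ih (s ++ [x]) r (by simp [h1]) (by
        simpa using hQ _ x ⟨s, t ++ r, by simp [h1], rfl⟩ h2)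
      simpa using this
  obtain ⟨s, t, h1, rfl⟩ := h
  obtain ⟨s', t', h1', rfl⟩ := h'
  have h2 := fw t s [] (by simp [h1]) hw
  rw [← h1, hc] at h2
  simpa using fw s' [] t' (by simp [h1']) h2

lemma cost_pos {K : Walk} (hc : Closed K) (hne : K.2 ≠ []) (h0 : K.1 ≠ []) : 0 < cost K.2 := by
  by_contra h
  have h1 : ∀ (s : List (Option ℕ)) (v : List ℕ), cost s = 0 → run v s = v.drop s.length := by
    intro s
    induction s with
    | nil => simp
    | cons x s ih =>
      intro v h
      cases x with
      | none => simp [ih _ h]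
      | some c => simp [cost] at h
  have h2 := congrArg List.length ((h1 K.2 K.1 (by omega)).symm.trans hc)
  have := List.length_pos_iff.2 hne
  have := List.length_pos_iff.2 h0
  simp at h2
  omega

/-- the walk lives on the periodic word `ω` -/
def Al (K : Walk) (ω : ℤ → ℕ) : Prop :=
  Per ω (cost K.2) ∧ (∀ w, Vtx K w → ∃ a b, a ≤ b ∧ w = word ω a b) ∧
    ∀ a b c, a ≤ b → Arc K (word ω a b) (some c) → c = ω b

lemma exists_Al {K : Walk} (hc : Closed K) (hN : 0 < cost K.2)
    (tall : ∀ w, Vtx K w → cost K.2 ≤ w.length) : ∃ ω, Al K ω := by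
  obtain ⟨v, st⟩ := K
  simp only [Closed] at hc hN tall
  obtain ⟨X, hX⟩ := run_isSuffix v st
  rw [hc] at hX
  set N := cost st with hNdef
  have hXl : X.length = N := by
    have := congrArg List.length hX
    simp [cost] at this hNdef ⊢
    omega
  set W := v ++ ups st with hW
  have hWl : W.length = v.length + N := by simp [hW, hNdef, cost]
  let ω : ℤ → ℕ := fun j => W.getD (j % N).toNat 0
  have hper : Per ω N := fun j => by simp [ω]
  have key : ∀ i : ℕ, i < W.length → W.getD i 0 = ω i := by
    intro i
    induction i using Nat.strong_induction_on with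
    | _ i ih =>
      intro hi
      by_cases h : i < N
      · simp only [ω]
        rw [Int.emod_eq_of_lt (by omega) (by omega)]
        simp
      · have e1 : W.getD i 0 = v.getD (i - N) 0 := by
          rw [← hX, List.getD_append_right _ _ _ _ (by omega), hXl]
        have e2 : W.getD (i - N) 0 = v.getD (i - N) 0 := by
          rw [hW, List.getD_append _ _ _ _ (by omega)]
        rw [e1, ← e2, ih (i - N) (by omega) (by omega), ← hper]
        congr 1; omega
  have hWw : W = word ω 0 W.length := by
    refine List.ext_getElem (by simp [word]) fun i h1 h2 => ?_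
    have := key i h1
    rw [List.getD_eq_getElem _ _ h1] at this
    simp [word, wl, this]
  have lift : ∀ s t, st = s ++ t → ∃ a b, a ≤ b ∧ run v s = word ω a b ∧
      ∀ c t', t = some c :: t' → c = ω b := by
    intro s t hst
    have hb : v.length + cost s ≤ W.length := by rw [hWl, hNdef, hst]; simp
    have e1 : v ++ ups s = word ω 0 (v.length + cost s : ℕ) := by
      have p1 : v ++ ups s <+: W := ⟨ups t, by simp [hW, hst]⟩
      have p2 : word ω 0 (v.length + cost s : ℕ) <+: W :=
        ⟨word ω (v.length + cost s : ℕ) W.length, by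
          rw [word_append (by omega) (by omega), ← hWw]⟩
      have hl : (v ++ ups s).length = (word ω 0 (v.length + cost s : ℕ)).length := by
        simp [word, cost]; omega
      exact (List.prefix_of_prefix_length_le p1 p2 hl.le).eq_of_length hl
    have hs := run_isSuffix v s
    have hle := hs.length_le
    rw [List.suffix_iff_eq_drop] at hs
    have hl2 : (v ++ ups s).length = v.length + cost s := by simp [cost]
    refine ⟨((v.length + cost s - (run v s).length : ℕ) : ℤ), (v.length + cost s : ℕ), by omega,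
      ?_, ?_⟩
    · rw [← word_drop (a := 0) (by omega) (by omega), ← e1]
      rw [hl2] at hs
      simpa using hs
    · rintro c t' rfl
      have hb' : v.length + cost s < W.length := by
        rw [hWl, hNdef, hst]; simp [cost]
      rw [← key _ hb', hW, hst, ups_append, ups_some, ← List.append_assoc,
        List.getD_append_right _ _ _ _ hl2.le, hl2]
      simp
  refine ⟨ω, hper, ?_, ?_⟩
  · rintro w ⟨s, t, h1, rfl⟩
    obtain ⟨a, b, h2, h3, -⟩ := lift s t h1
    exact ⟨a, b, h2, h3⟩
  · intro a b c hab harc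
    have ht := tall _ harc.src
    obtain ⟨s, t, h1, h2⟩ := harc
    obtain ⟨a0, b0, h3, h4, h5⟩ := lift s _ h1
    have hl := length_word (ω := ω) hab
    obtain ⟨h6, h7⟩ := per_of_word_eq (p := N) (by omega) hper (by omega) h3 (h2.trans h4)
    rw [h5 c t rfl, h7, h6]

lemma word_shift (ω : ℤ → ℕ) (d : ℤ) {a b : ℤ} (hab : a ≤ b) :
    word (fun j => ω (j + d)) a b = word ω (a + d) (b + d) :=
  word_ext hab (by ring) fun i _ _ => by congr 1; ring

lemma Al.shift {K ω} (h : Al K ω) (d : ℤ) : Al K fun j => ω (j + d) := by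
  refine ⟨fun j => ?_, fun w hw => ?_, fun a b c hab harc => ?_⟩
  · show ω (j + _ + d) = ω (j + d)
    rw [← h.1 (j + d)]; congr 1; ring
  · obtain ⟨a, b, hab, rfl⟩ := h.2.1 w hw
    exact ⟨a - d, b - d, by omega, by rw [word_shift _ _ (by omega)]; simp⟩
  · rw [word_shift _ _ hab] at harc
    exact h.2.2 _ _ c (by omega) harc

lemma Al.at {K ω₀} (h : Al K ω₀) {ω : ℤ → ℕ} {a b : ℤ} (hab : a ≤ b) (hv : Vtx K (word ω a b)) :
    ∃ ω', Al K ω' ∧ word ω' a b = word ω a b := by
  obtain ⟨a0, b0, h1, h2⟩ := h.2.1 _ hv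
  refine ⟨_, h.shift (a0 - a), ?_⟩
  have := (eq_of_word_eq hab h1 h2).1
  rw [word_shift _ _ hab, h2]
  congr 1 <;> omega

lemma follow {K ω} (hc : Closed K) (hne : K.2 ≠ []) (h : Al K ω) (h0 : ∀ w, Vtx K w → w ≠ [])
    {a b β : ℤ} (hab : a ≤ b) (hv : Vtx K (word ω a b)) (hb : b ≤ β) :
    ∃ a', a ≤ a' ∧ a' ≤ β ∧ Vtx K (word ω a' β) := by
  have step : ∀ (k : ℕ) (a b : ℤ), a ≤ b → b - a ≤ k → Vtx K (word ω a b) →
      ∃ a', a ≤ a' ∧ a' ≤ b + 1 ∧ Vtx K (word ω a' (b + 1)) := by
    intro k
    induction k with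
    | zero =>
      intro a b h1 h2 h3
      have : a = b := by omega
      subst this
      exact absurd word_self (h0 _ h3)
    | succ k ih =>
      intro a b h1 h2 h3
      obtain ⟨x, hx⟩ := h3.arc hc hne
      cases x with
      | some c =>
        have := hx.tgt
        rw [h.2.2 a b c h1 hx, app_some, ← word_succ h1] at this
        exact ⟨a, le_rfl, by omega, this⟩
      | none =>
        have hlt : a < b := lt_of_le_of_ne h1 fun e => h0 _ h3 (by rw [e, word_self])
        have := hx.tgt
        rw [app_none, word_tail hlt] at this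
        obtain ⟨a', h4, h5, h6⟩ := ih (a + 1) b (by omega) (by push_cast at h2; omega) this
        exact ⟨a', by omega, h5, h6⟩
  induction β, hb using Int.leInduction with
  | base => exact ⟨a, le_rfl, hab, hv⟩
  | succ β hβ ih =>
    obtain ⟨a', h1, h2, h3⟩ := ih
    obtain ⟨a'', h4, h5, h6⟩ := step (β - a').toNat a' β h2 (by omega) h3
    exact ⟨a'', by omega, h5, h6⟩

/-- insert a closed walk into a walk from the empty word at a common vertex -/
def merge (M : List (Option ℕ)) (K : Walk) : List (Option ℕ) :=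
  (((List.range (M.length + 1)).product (List.range (K.2.length + 1))).find?
    fun q => decide (run [] (M.take q.1) = run K.1 (K.2.take q.2))).elim M
    fun q => M.take q.1 ++ (K.2.drop q.2 ++ K.2.take q.2) ++ M.drop q.1

lemma merge_cases (M : List (Option ℕ)) (K : Walk) :
    (merge M K = M ∧ ¬ ∃ w, Vtx ([], M) w ∧ Vtx K w) ∨
    ∃ s t s' t', M = s ++ t ∧ K.2 = s' ++ t' ∧ run [] s = run K.1 s' ∧
      merge M K = s ++ (t' ++ s') ++ t := by
  unfold merge
  cases h : ((List.range (M.length + 1)).product (List.range (K.2.length + 1))).find?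
    fun q => decide (run [] (M.take q.1) = run K.1 (K.2.take q.2)) with
  | none =>
    refine Or.inl ⟨rfl, ?_⟩
    rintro ⟨w, ⟨s, t, h1, h2⟩, s', t', h3, h4⟩
    simp only at h1 h2
    have := List.find?_eq_none.1 h (s.length, s'.length) (by
      rw [List.pair_mem_product]; simp [h1, h3])
    apply this
    simp [h1, h3, ← h2, ← h4]
  | some q =>
    have := List.find?_some h
    exact Or.inr ⟨_, _, _, _, (List.take_append_drop q.1 M).symm,
      (List.take_append_drop q.2 K.2).symm, by simpa using this, rfl⟩

lemma cost_merge (M : List (Option ℕ)) (K : Walk) : cost (merge M K) ≤ cost M + cost K.2 := by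
  rcases merge_cases M K with ⟨h, -⟩ | ⟨s, t, s', t', h1, h2, -, h4⟩
  · rw [h]; omega
  · rw [h4, h1, h2]; simp; omega

lemma merge_left {M : List (Option ℕ)} {K : Walk} (hc : Closed K) {w} (h : Vtx ([], M) w) :
    Vtx ([], merge M K) w := by
  rcases merge_cases M K with ⟨h0, -⟩ | ⟨s, t, s', t', h1, h2, h3, h4⟩
  · rwa [h0]
  · have hcl : run (run K.1 s') t' = K.1 := by rw [← run_append, ← h2]; exact hc
    obtain ⟨r, r', h5, rfl⟩ := h
    simp only at h5
    rw [h1] at h5
    rcases List.append_eq_append_iff.1 h5 with ⟨a, h6, h7⟩ | ⟨a, h6, h7⟩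
    · exact ⟨s ++ (t' ++ s') ++ a, r', by simp [h4, h7], by simp [h6, h3, hcl]⟩
    · exact ⟨r, a ++ (t' ++ s') ++ t, by simp [h4, h6], rfl⟩

lemma merge_right {M : List (Option ℕ)} {K : Walk} (hc : Closed K)
    (hx : ∃ w, Vtx ([], M) w ∧ Vtx K w) {w} (h : Vtx K w) : Vtx ([], merge M K) w := by
  rcases merge_cases M K with ⟨-, h0⟩ | ⟨s, t, s', t', h1, h2, h3, h4⟩
  · exact absurd hx h0
  · have hcl : run (run K.1 s') t' = K.1 := by rw [← run_append, ← h2]; exact hc
    obtain ⟨r, r', h5, rfl⟩ := h
    rw [h2] at h5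
    rcases List.append_eq_append_iff.1 h5 with ⟨a, h6, h7⟩ | ⟨a, h6, h7⟩
    · exact ⟨s ++ a, r' ++ s' ++ t, by simp [h4, h7], by simp [h6, h3]⟩
    · exact ⟨s ++ t' ++ r, a ++ t, by simp [h4, h6], by simp [h3, hcl]⟩

end Vale.Agent.P333
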