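import Vale.Agent.P333.Occ
import Vale.Agent.P333.Walk

/-! The forced counts and the arcs of the balanced multigraph they define. -/

namespace Vale.Agent.P333

open Finset

/-- all factors of the input strings -/
def subs (S : List (List ℕ)) : List (List ℕ) :=
  ([] :: S.flatMap fun s => (List.range (s.length + 1)).flatMap fun i =>
    (List.range (s.length + 1)).map fun j => (s.drop i).take j).dedup

def alph (S : List (List ℕ)) : List ℕ := S.flatten.dedup

def bnd (S : List (List ℕ)) : ℕ := S.flatten.length + 1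

def lk (t : List (List ℕ × ℕ)) (w : List ℕ) : ℕ :=
  ((t.find? fun q => decide (q.1 = w)).map fun q => q.2).getD 0

def Ls (A : List ℕ) (n : List ℕ → ℕ) (w : List ℕ) : ℕ := (A.map fun c => n (c :: w)).sum

def Rs (A : List ℕ) (n : List ℕ → ℕ) (w : List ℕ) : ℕ := (A.map fun c => n (w ++ [c])).sum

def om (x : List ℕ) (p : ℕ) (i : ℤ) : ℕ := x.getD (i % (p : ℤ)).toNat 0

def fire (S : List (List ℕ)) (n : List ℕ → ℕ) (v x : List ℕ) (p : ℕ) : Bool :=
  decide (v.length < x.length ∧ x = wl (om x p) 0 x.length ∧ v = wl (om x p) p v.length ∧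
    Ls (alph S) n x < n x ∧
    (∀ j < p, 0 < j → n (wl (om x p) p (v.length + j)) ≤
      Rs (alph S) n (wl (om x p) p (v.length + j))) ∧
    ∀ j < p, ∀ k < bnd S, ∀ c ∈ alph S, c ≠ om x p ((x.length + j : ℕ) : ℤ) →
      n (wl (om x p) ((p : ℤ) - (k : ℤ)) (v.length + j + k) ++ [c]) ≤
        Ls (alph S) n (wl (om x p) ((p : ℤ) - (k : ℤ)) (v.length + j + k) ++ [c]))

def Phi (S : List (List ℕ)) (n : List ℕ → ℕ) (v : List ℕ) : ℕ :=
  max (max (Ls (alph S) n v) (if v ∈ S then 1 else 0))
    (Rs (alph S) n v +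
      if ((subs S).any fun x => fire S n v x (x.length - v.length)) = true then 1 else 0)

def stepT (S : List (List ℕ)) (t : List (List ℕ × ℕ)) : List (List ℕ × ℕ) :=
  (subs S).map fun w => (w, min (bnd S) (Phi S (lk t) w))

def tbl (S : List (List ℕ)) : List (List ℕ × ℕ) := (stepT S)^[bnd S] []

def cnt (S : List (List ℕ)) : List ℕ → ℕ := lk (tbl S)

variable {S : List (List ℕ)}

lemma mem_subs {w} : w ∈ subs S ↔ w = [] ∨ ∃ s ∈ S, w <:+: s := by
  simp only [subs, List.mem_dedup, List.mem_cons, List.mem_flatMap, List.mem_map, List.mem_range]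
  refine or_congr Iff.rfl (exists_congr fun s => and_congr Iff.rfl ⟨?_, ?_⟩)
  · rintro ⟨i, -, j, -, rfl⟩
    exact (List.take_prefix _ _).isInfix.trans (List.drop_suffix _ _).isInfix
  · rintro ⟨a, b, rfl⟩
    exact ⟨a.length, by simp, w.length, by simp; omega, by simp⟩

lemma subs_inf (w w' : List ℕ) (h : w ∈ subs S) (h' : w' <:+: w) : w' ∈ subs S := by
  rcases mem_subs.1 h with rfl | ⟨s, hs, h⟩
  · exact mem_subs.2 (Or.inl (List.infix_nil.1 h'))
  · exact mem_subs.2 (Or.inr ⟨s, hs, h'.trans h⟩)

lemma super_flatten : ∀ s ∈ S, s <:+: S.flatten := fun _ hs => List.infix_of_mem_flatten hs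

lemma length_lt_bnd {w} (h : w ∈ subs S) : w.length < bnd S := by
  unfold bnd
  rcases mem_subs.1 h with rfl | ⟨s, hs, h⟩
  · simp
  · have := (h.trans (super_flatten s hs)).length_le
    omega

lemma mem_alph {w c} (h : w ∈ subs S) (hc : c ∈ w) : c ∈ alph S := by
  rcases mem_subs.1 h with rfl | ⟨s, hs, h⟩
  · simp at hc
  · exact List.mem_dedup.2 ((h.trans (super_flatten s hs)).subset hc)

lemma nodup_subs : (subs S).Nodup := List.nodup_dedup _

lemma nodup_alph : (alph S).Nodup := List.nodup_dedup _

lemma Ls_eq (n w) : Ls (alph S) n w = ∑ c ∈ (alph S).toFinset, n (c :: w) :=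
  (List.sum_toFinset _ (List.nodup_dedup _)).symm

lemma Rs_eq (n w) : Rs (alph S) n w = ∑ c ∈ (alph S).toFinset, n (w ++ [c]) :=
  (List.sum_toFinset _ (List.nodup_dedup _)).symm

lemma lk_map (l : List (List ℕ)) (g : List ℕ → ℕ) (w : List ℕ) :
    lk (l.map fun w => (w, g w)) w = if w ∈ l then g w else 0 := by
  induction l with
  | nil => simp [lk]
  | cons a l ih =>
    unfold lk at ih ⊢
    by_cases h : a = w
    · simp [h]
    · rw [List.map_cons, List.find?_cons_of_neg (by simpa using h), ih]
      simp [Ne.symm h]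

lemma Phi_congr {n n' : List ℕ → ℕ} {v : List ℕ} (h : ∀ w, v.length < w.length → n w = n' w) :
    Phi S n v = Phi S n' v := by
  have hL : ∀ w, v.length ≤ w.length → Ls (alph S) n w = Ls (alph S) n' w := fun w hw =>
    congrArg List.sum (List.map_congr_left fun c _ => h _ (by simp; omega))
  have hR : ∀ w, v.length ≤ w.length → Rs (alph S) n w = Rs (alph S) n' w := fun w hw =>
    congrArg List.sum (List.map_congr_left fun c _ => h _ (by simp; omega))
  have hf : ∀ x p, fire S n v x p = fire S n' v x p := by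
    intro x p
    unfold fire
    refine decide_eq_decide.2 (and_congr_right fun hx => and_congr_right fun _ =>
      and_congr_right fun _ => and_congr (by rw [hL x hx.le, h x hx]) (and_congr ?_ ?_))
    · refine forall₃_congr fun j _ hj => ?_
      rw [hR _ (by simp), h _ (by simpa using hj)]
    · refine forall₄_congr fun j _ k _ => forall₃_congr fun c _ _ => ?_
      rw [hL _ (by simp; omega), h _ (by simp; omega)]
  unfold Phi
  rw [hL v le_rfl, hR v le_rfl]
  simp only [hf]

lemma cnt_eq (w : List ℕ) :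
    cnt S w = if w ∈ subs S then min (bnd S) (Phi S (cnt S) w) else 0 := by
  have h1 : ∀ k w, lk ((stepT S)^[k + 1] []) w =
      if w ∈ subs S then min (bnd S) (Phi S (lk ((stepT S)^[k] [])) w) else 0 := by
    intro k w
    rw [Function.iterate_succ_apply', stepT, lk_map]
  have h2 : ∀ k w, bnd S ≤ w.length + k →
      lk ((stepT S)^[k] []) w = lk ((stepT S)^[k + 1] []) w := by
    intro k
    induction k with
    | zero =>
      intro w hw
      rw [h1, if_neg fun h => by have := length_lt_bnd h; omega]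
      rfl
    | succ k ih =>
      intro w hw
      rw [h1, h1, Phi_congr fun w' hw' => ih w' (by omega)]
  rw [cnt, tbl, h2 _ _ (by omega), h1]

lemma cnt_zero {w} (h : w ∉ subs S) : cnt S w = 0 := by rw [cnt_eq, if_neg h]

lemma cnt_le_bnd (w) : cnt S w ≤ bnd S := by
  rw [cnt_eq]; split_ifs
  · exact min_le_left _ _
  · exact Nat.zero_le _

lemma mem_subs_of_pos {w} (h : 0 < cnt S w) : w ∈ subs S := by
  by_contra h'
  rw [cnt_zero h'] at h
  omega

lemma occ_le_bnd (w) : occ S.flatten w ≤ bnd S := occ_le _ _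

lemma per_om (x : List ℕ) (p : ℕ) : Per (om x p) p := fun j => by simp [om]

lemma phi_valid_aux : ∀ (k : ℕ) (v : List ℕ), bnd S ≤ v.length + k → v ∈ subs S →
    ∀ T, (∀ s ∈ S, s <:+: T) → Phi S (cnt S) v ≤ occ T v := by
  intro k
  induction k with
  | zero => intro v h hv; have := length_lt_bnd hv; omega
  | succ k ih =>
    intro v hk hv T hT
    have IH : ∀ w : List ℕ, v.length < w.length → cnt S w ≤ occ T w := by
      intro w hw
      rw [cnt_eq]
      split_ifs with h
      · exact (min_le_right _ _).trans (ih w (by omega) h T hT)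
      · exact Nat.zero_le _
    have G2 : ∀ w : List ℕ, v.length < w.length →
        ∑ c ∈ (alph S).toFinset, cnt S (w ++ [c]) ≤ cnt S w := by
      intro w hw
      by_cases h : w ∈ subs S
      · rw [cnt_eq w, if_pos h, min_eq_right ((ih w (by omega) h _ super_flatten).trans
          (occ_le_bnd _)), ← Rs_eq]
        exact le_trans (Nat.le_add_right _ _) (le_max_right _ _)
      · rw [Finset.sum_eq_zero fun c _ => cnt_zero fun h' =>
          h (subs_inf _ _ h' (List.prefix_append _ _).isInfix)]
        exact Nat.zero_le _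
    unfold Phi
    refine max_le (max_le ?_ ?_) ?_
    · rw [Ls_eq]
      exact (Finset.sum_le_sum fun c _ => IH _ (by simp)).trans (occ_cons _ T v)
    · split_ifs with h
      · exact occ_pos (hT v h)
      · exact Nat.zero_le _
    · split_ifs with h
      · obtain ⟨x, hx, hf⟩ := List.any_eq_true.1 h
        unfold fire at hf
        generalize hp : x.length - v.length = p at hf
        obtain ⟨h1, h2, h3, h4, h5, h6⟩ := of_decide_eq_true hf
        have e2 : x = word (om x p) 0 x.length := by
          rw [wl_eq_word, zero_add] at h2; exact h2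
        have e3 : v = word (om x p) p x.length := by
          rw [wl_eq_word, show (p : ℤ) + v.length = x.length by omega] at h3; exact h3
        have := fire_valid (alph S).toFinset T (cnt S) (om x p) p x.length (by omega) (by omega)
          (per_om x p) (fun j => by
            have a1 := Int.emod_nonneg j (show (p : ℤ) ≠ 0 by omega)
            have a2 := Int.emod_lt_of_pos j (show (0 : ℤ) < p by omega)
            rw [List.mem_toFinset, om, List.getD_eq_getElem _ _ (by omega)]
            exact mem_alph hx (List.getElem_mem _))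
          (fun w hw => IH w (by omega)) (fun w hw => G2 w (by omega))
          (by rw [← e2, ← Ls_eq]; exact h4)
          (fun b hb1 hb2 => by
            have := h5 (b - x.length).toNat (by omega) (by omega)
            rw [wl_eq_word, Rs_eq, show (p : ℤ) + ((v.length + (b - x.length).toNat : ℕ) : ℤ) = b
              by omega] at this
            exact this)
          (fun a b c ha hb1 hb2 hc hne => by
            by_cases hk : (p - a).toNat < bnd S
            · have := h6 (b - x.length).toNat (by omega) (p - a).toNat hk c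
                (List.mem_toFinset.1 hc)
                (by rwa [show ((x.length + (b - x.length).toNat : ℕ) : ℤ) = b by omega])
              rw [wl_eq_word, Ls_eq, show (p : ℤ) - ((p - a).toNat : ℕ) = a by omega,
                show a + ((v.length + (b - x.length).toNat + (p - a).toNat : ℕ) : ℤ) = b
                  by omega] at this
              exact this
            · rw [cnt_zero fun h' => ?_]
              · exact Nat.zero_le _
              · have := length_lt_bnd h'
                have := length_word (ω := om x p) (a := a) (b := b) (by omega)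
                simp only [List.length_append, List.length_singleton] at *
                omega)
        rw [← e3, ← Rs_eq] at this
        omega
      · rw [Rs_eq, add_zero]
        exact (Finset.sum_le_sum fun c _ => IH _ (by simp)).trans (occ_snoc _ T v)

lemma cnt_phi {v} (hv : v ∈ subs S) : cnt S v = Phi S (cnt S) v := by
  rw [cnt_eq v, if_pos hv, min_eq_right ((phi_valid_aux (bnd S) v (by omega) hv _
    super_flatten).trans (occ_le_bnd _))]

lemma cnt_valid {T} (hT : ∀ s ∈ S, s <:+: T) (v) : cnt S v ≤ occ T v := by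
  by_cases hv : v ∈ subs S
  · rw [cnt_phi hv]; exact phi_valid_aux (bnd S) v (by omega) hv T hT
  · rw [cnt_zero hv]; exact Nat.zero_le _

lemma Ls_le (w) : Ls (alph S) (cnt S) w ≤ cnt S w := by
  by_cases h : w ∈ subs S
  · rw [cnt_phi h]; exact le_trans (le_max_left _ _) (le_max_left _ _)
  · rw [Ls_eq, Finset.sum_eq_zero fun c _ => cnt_zero fun h' =>
      h (subs_inf _ _ h' (List.suffix_cons _ _).isInfix)]
    exact Nat.zero_le _

lemma Rs_le (w) : Rs (alph S) (cnt S) w ≤ cnt S w := by
  by_cases h : w ∈ subs S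
  · rw [cnt_phi h]; exact le_trans (Nat.le_add_right _ _) (le_max_right _ _)
  · rw [Rs_eq, Finset.sum_eq_zero fun c _ => cnt_zero fun h' =>
      h (subs_inf _ _ h' (List.prefix_append _ _).isInfix)]
    exact Nat.zero_le _

/-- arcs of positive multiplicity -/
def GA (S : List (List ℕ)) (w : List ℕ) : Option ℕ → Prop
  | none => w ≠ [] ∧ Rs (alph S) (cnt S) w < cnt S w
  | some c => Ls (alph S) (cnt S) (w ++ [c]) < cnt S (w ++ [c])

lemma GA_sub (w x) (h : GA S w x) : w ∈ subs S := by
  cases x with
  | none => exact mem_subs_of_pos (lt_of_le_of_lt (Nat.zero_le _) h.2)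
  | some c =>
    exact subs_inf _ _ (mem_subs_of_pos (lt_of_le_of_lt (Nat.zero_le _) h))
      (List.prefix_append _ _).isInfix

lemma GA_max {s} (hs : s ∈ S) (h0 : s ≠ []) (hmax : ∀ w ∈ subs S, s <:+: w → w.length ≤ s.length) :
    GA S s none := by
  refine ⟨h0, ?_⟩
  rw [Rs_eq, Finset.sum_eq_zero fun c _ => cnt_zero fun h' => by
    have := hmax _ h' (List.prefix_append _ _).isInfix
    simp at this, cnt_phi (mem_subs.2 (Or.inr ⟨s, hs, List.infix_rfl⟩))]
  unfold Phi
  rw [if_pos hs]
  omega

lemma GA_contact (ω : ℤ → ℕ) (p a b : ℤ) (hp : 0 < p) (hper : Per ω p) (hab : a + p ≤ b)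
    (h : GA S (word ω a b) (some (ω b))) : ∃ a' b', a' ≤ a ∧ b - p < b' ∧ b' ≤ b ∧
      ((a' = a ∧ GA S (word ω a' b') none) ∨ ∃ c, c ≠ ω b' ∧ GA S (word ω a' b') (some c)) := by
  by_contra hno
  have hd : ∀ b', b - p < b' → b' ≤ b → cnt S (word ω a b') ≤ Rs (alph S) (cnt S) (word ω a b') := by
    intro b' h1 h2
    by_contra h3
    refine hno ⟨a, b', le_rfl, h1, h2, Or.inl ⟨rfl, fun h4 => ?_, by omega⟩⟩
    have := length_word (ω := ω) (a := a) (b := b') (by omega)
    rw [h4] at this
    simp at this
    omega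
  have he : ∀ a' b' c, a' ≤ a → b - p < b' → b' ≤ b → c ≠ ω b' →
      cnt S (word ω a' b' ++ [c]) ≤ Ls (alph S) (cnt S) (word ω a' b' ++ [c]) := by
    intro a' b' c h0 h1 h2 h3
    by_contra h4
    exact hno ⟨a', b', h0, h1, h2, Or.inr ⟨c, h3, lt_of_not_ge h4⟩⟩
  replace h : Ls (alph S) (cnt S) (word ω a b ++ [ω b]) < cnt S (word ω a b ++ [ω b]) := h
  rw [← word_succ (by omega)] at h
  obtain ⟨q, rfl⟩ := Int.eq_ofNat_of_zero_le hp.le
  set x := word ω a (b + 1) with hx
  set v := word ω a (b + 1 - q) with hv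
  have lx : (x.length : ℤ) = b + 1 - a := length_word (by omega)
  have lv : (v.length : ℤ) = b + 1 - q - a := length_word (by omega)
  have hxs : x ∈ subs S := mem_subs_of_pos (by omega)
  have hvs : v ∈ subs S := subs_inf _ _ hxs (word_isInfix le_rfl (by omega) (by omega))
  have hom : om x q = fun j => ω (j + a) := by
    refine eq_of_per (a := 0) hp (per_om x q) (fun j => ?_) fun i h1 h2 => ?_
    · show ω (j + q + a) = ω (j + a)
      rw [← hper (j + a)]; congr 1; ring
    · rw [om, Int.emod_eq_of_lt h1 (by omega), List.getD_eq_getElem _ _ (by omega)]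
      simp only [hx, word, wl, List.getElem_map, List.getElem_range]
      congr 1; omega
  have hwl : ∀ (a' : ℤ) (m : ℕ), wl (om x q) a' m = word ω (a' + a - q) (a' + m + a - q) := by
    intro a' m
    rw [hom, wl_eq_word, word_shift _ _ (by omega), ← hper.word (a := a' + a - q) (by omega)]
    congr 1 <;> ring
  have hf : fire S (cnt S) v x (x.length - v.length) = true := by
    rw [show x.length - v.length = q by omega]
    unfold fire
    refine decide_eq_true ⟨by omega, ?_, ?_, h, fun j h1 h2 => ?_, fun j h1 k _ c _ hne => ?_⟩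
    · rw [hwl, ← hper.word (by omega)]
      conv_lhs => rw [hx]
      congr 1 <;> omega
    · rw [hwl]
      conv_lhs => rw [hv]
      congr 1 <;> omega
    · rw [hwl, show (q : ℤ) + a - q = a by ring]
      exact hd _ (by omega) (by omega)
    · rw [hwl]
      refine he _ _ c (by omega) (by omega) (by omega) ?_
      rw [hom] at hne
      rw [← hper]
      convert hne using 2
      omega
  have h1 := hd (b + 1 - q) (by omega) (by omega)
  rw [← hv, cnt_phi hvs] at h1
  unfold Phi at h1
  rw [if_pos (List.any_eq_true.2 ⟨x, hxs, hf⟩)] at h1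
  omega

/-- the arcs with multiplicity, as walks of length one -/
def arcl (S : List (List ℕ)) (n : List ℕ → ℕ) : List Walk :=
  (subs S).flatMap fun z => (alph S).flatMap fun c =>
    List.replicate (n (z ++ [c]) - Ls (alph S) n (z ++ [c])) (z, [some c]) ++
      List.replicate (n (c :: z) - Rs (alph S) n (c :: z)) (c :: z, [none])

lemma mem_arcl {K : Walk} : K ∈ arcl S (cnt S) ↔ ∃ w x, K = (w, [x]) ∧ GA S w x := by
  simp only [arcl, List.mem_flatMap, List.mem_append, List.mem_replicate]
  constructor
  · rintro ⟨z, -, c, -, ⟨h, rfl⟩ | ⟨h, rfl⟩⟩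
    · exact ⟨_, _, rfl, show _ < _ by omega⟩
    · exact ⟨_, _, rfl, by simp, by omega⟩
  · rintro ⟨w, x, rfl, h⟩
    have hw := GA_sub _ _ h
    cases x with
    | none =>
      obtain ⟨c, z, rfl⟩ := List.exists_cons_of_ne_nil h.1
      exact ⟨z, subs_inf _ _ hw (List.suffix_cons _ _).isInfix, c, mem_alph hw (by simp),
        Or.inr ⟨by have := h.2; omega, rfl⟩⟩
    | some c =>
      have h' : Ls (alph S) (cnt S) (w ++ [c]) < cnt S (w ++ [c]) := h
      exact ⟨w, hw, c, mem_alph (mem_subs_of_pos (w := w ++ [c]) (by omega)) (by simp),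
        Or.inl ⟨by omega, rfl⟩⟩

lemma sum_flatMap {α β : Type} (l : List α) (f : α → List β) (g : β → ℕ) :
    ((l.flatMap f).map g).sum = (l.map fun a => ((f a).map g).sum).sum := by
  induction l with
  | nil => simp
  | cons a l ih => simp [ih]

lemma sum_arcl (n : List ℕ → ℕ) (g : Walk → ℕ) : ((arcl S n).map g).sum =
    ∑ z ∈ (subs S).toFinset, ∑ c ∈ (alph S).toFinset,
      ((n (z ++ [c]) - Ls (alph S) n (z ++ [c])) * g (z, [some c]) +
        (n (c :: z) - Rs (alph S) n (c :: z)) * g (c :: z, [none])) := by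
  rw [arcl, sum_flatMap, List.sum_toFinset _ nodup_subs]
  refine congrArg List.sum (List.map_congr_left fun z _ => ?_)
  rw [sum_flatMap, List.sum_toFinset _ nodup_alph]
  simp

lemma sum_reindex (φ : List ℕ → ℕ → List ℕ) (hinj : ∀ z c z' c', φ z c = φ z' c' → z = z' ∧ c = c')
    (hne : ∀ z c, φ z c ≠ []) (hsur : ∀ w, w ≠ [] → ∃ z c, φ z c = w ∧ z <:+: w ∧ c ∈ w)
    (f : List ℕ → ℕ) (hf : ∀ w, w ∉ subs S → f w = 0) :
    ∑ z ∈ (subs S).toFinset, ∑ c ∈ (alph S).toFinset, f (φ z c) =
      ∑ w ∈ (subs S).toFinset.erase [], f w := by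
  rw [← Finset.sum_product', ← Finset.sum_image (g := fun q : List ℕ × ℕ => φ q.1 q.2)
    fun q _ q' _ h => Prod.ext (hinj _ _ _ _ h).1 (hinj _ _ _ _ h).2]
  refine (Finset.sum_subset (fun w hw => ?_) fun w hw hw' => hf w fun h => hw' ?_).symm
  · simp only [mem_erase, List.mem_toFinset] at hw
    obtain ⟨z, c, h1, h2, h3⟩ := hsur w hw.1
    exact mem_image.2 ⟨(z, c), by simp [subs_inf _ _ hw.2 h2, mem_alph hw.2 h3], h1⟩
  · obtain ⟨q, -, rfl⟩ := mem_image.1 hw
    simp [hne, h]

lemma sum_snoc (f : List ℕ → ℕ) (hf : ∀ w, w ∉ subs S → f w = 0) :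
    ∑ z ∈ (subs S).toFinset, ∑ c ∈ (alph S).toFinset, f (z ++ [c]) =
      ∑ w ∈ (subs S).toFinset.erase [], f w :=
  sum_reindex (fun z c => z ++ [c]) (fun z c z' c' h => by simpa using List.append_inj' h rfl)
    (by simp) (fun w hw => by
      obtain ⟨z, c, rfl⟩ := (List.eq_nil_or_concat' w).resolve_left hw
      exact ⟨z, c, rfl, (List.prefix_append _ _).isInfix, by simp⟩) f hf

lemma sum_cons' (f : List ℕ → ℕ) (hf : ∀ w, w ∉ subs S → f w = 0) :
    ∑ z ∈ (subs S).toFinset, ∑ c ∈ (alph S).toFinset, f (c :: z) =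
      ∑ w ∈ (subs S).toFinset.erase [], f w :=
  sum_reindex (fun z c => c :: z) (fun z c z' c' h => by simpa [and_comm] using h)
    (by simp) (fun w hw => by
      obtain ⟨c, z, rfl⟩ := List.exists_cons_of_ne_nil hw
      exact ⟨z, c, rfl, (List.suffix_cons _ _).isInfix, by simp⟩) f hf

lemma cost_arcl {T} (hT : ∀ s ∈ S, s <:+: T) :
    ((arcl S (cnt S)).map fun K => cost K.2).sum ≤ T.length := by
  rw [sum_arcl]
  simp only [show ∀ c, cost [some c] = 1 from fun _ => rfl, show cost [none] = 0 from rfl,
    mul_one, mul_zero, add_zero]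
  rw [sum_snoc (fun w => cnt S w - Ls (alph S) (cnt S) w) fun w hw => by simp [cnt_zero hw]]
  have h1 := sum_cons' (S := S) (cnt S) fun w hw => cnt_zero hw
  simp only [← Ls_eq] at h1
  rw [← Finset.add_sum_erase _ _ (show [] ∈ (subs S).toFinset by simp [mem_subs])] at h1
  have h2 : ∑ w ∈ (subs S).toFinset.erase [], (cnt S w - Ls (alph S) (cnt S) w) +
      ∑ w ∈ (subs S).toFinset.erase [], Ls (alph S) (cnt S) w =
      ∑ w ∈ (subs S).toFinset.erase [], cnt S w := by
    rw [← Finset.sum_add_distrib]
    exact Finset.sum_congr rfl fun w _ => Nat.sub_add_cancel (Ls_le w)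
  have h3 : Ls (alph S) (cnt S) [] ≤ T.length := by
    rw [Ls_eq]
    exact (Finset.sum_le_sum fun c _ => cnt_valid hT _).trans (occ_letters _ T)
  omega

def dl (a b : List ℕ) : ℕ := if a = b then 1 else 0

lemma count_map_eq {α : Type} (l : List α) (f : α → List ℕ) (z : List ℕ) :
    (l.map f).count z = (l.map fun a => dl (f a) z).sum := by
  induction l with
  | nil => simp
  | cons a l ih => simp [List.count_cons, ih, add_comm, dl]

lemma balance_arcl : ((arcl S (cnt S)).map fun K => K.1).Perm
    ((arcl S (cnt S)).map fun K => run K.1 K.2) := by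
  refine List.perm_iff_count.2 fun y => ?_
  rw [count_map_eq, count_map_eq, sum_arcl, sum_arcl]
  simp only [run_cons, run_nil, app_some, app_none, List.tail_cons, Finset.sum_add_distrib]
  rw [sum_snoc (fun w => (cnt S w - Ls (alph S) (cnt S) w) * dl w y)
      fun w hw => by simp [cnt_zero hw],
    sum_cons' (fun w => (cnt S w - Rs (alph S) (cnt S) w) * dl w y)
      fun w hw => by simp [cnt_zero hw]]
  simp only [← Finset.sum_mul]
  simp only [dl, mul_ite, mul_one, mul_zero, Finset.sum_ite_eq', mem_erase,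
    List.mem_toFinset]
  by_cases hy : y ∈ subs S
  · have e1 : ∑ c ∈ (alph S).toFinset, (cnt S (y ++ [c]) - Ls (alph S) (cnt S) (y ++ [c])) +
        ∑ c ∈ (alph S).toFinset, Ls (alph S) (cnt S) (y ++ [c]) = Rs (alph S) (cnt S) y := by
      rw [← Finset.sum_add_distrib, Rs_eq]
      exact Finset.sum_congr rfl fun w _ => Nat.sub_add_cancel (Ls_le _)
    have e2 : ∑ c ∈ (alph S).toFinset, (cnt S (c :: y) - Rs (alph S) (cnt S) (c :: y)) +
        ∑ c ∈ (alph S).toFinset, Rs (alph S) (cnt S) (c :: y) = Ls (alph S) (cnt S) y := by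
      rw [← Finset.sum_add_distrib, Ls_eq]
      exact Finset.sum_congr rfl fun w _ => Nat.sub_add_cancel (Rs_le _)
    have e3 : ∑ c ∈ (alph S).toFinset, Ls (alph S) (cnt S) (y ++ [c]) =
        ∑ c ∈ (alph S).toFinset, Rs (alph S) (cnt S) (c :: y) := by
      simp only [Ls_eq, Rs_eq]
      exact Finset.sum_comm
    have := Ls_le (S := S) y
    have := Rs_le (S := S) y
    by_cases h0 : y = []
    · subst h0
      have : Ls (alph S) (cnt S) [] = Rs (alph S) (cnt S) [] := rfl
      simp only [hy, if_true, ne_eq, not_true, false_and, if_false]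
      omega
    · simp only [hy, if_true, ne_eq, h0, not_false_eq_true, and_self]
      omega
  · simp [hy]

end Vale.Agent.P333
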