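import Vale.Agent.P333.Word

/-! Occurrence counts in a string and validity of the forcing rule. -/

namespace Vale.Agent.P333

open Finset

/-- indicator that `w` starts `τ` -/
def ind (w τ : List ℕ) : ℕ := if w <+: τ then 1 else 0

/-- number of occurrences of `w` in a string -/
def occ : List ℕ → List ℕ → ℕ
  | [], w => ind w []
  | a :: T, w => ind w (a :: T) + occ T w

lemma ind_snoc (A : Finset ℕ) (w τ : List ℕ) : ∑ c ∈ A, ind (w ++ [c]) τ ≤ ind w τ := by
  unfold ind
  by_cases h : w <+: τ
  · rw [if_pos h, Finset.sum_boole, Nat.cast_id, Finset.card_le_one]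
    intro c hc d hd
    simp only [mem_filter] at hc hd
    have h1 := List.prefix_of_prefix_length_le hc.2 hd.2 (by simp)
    have h2 := h1.eq_of_length (by simp)
    simpa using h2
  · rw [if_neg h]
    refine le_of_eq (Finset.sum_eq_zero fun c _ => if_neg fun h' => h ?_)
    exact (List.prefix_append w [c]).trans h'

lemma ind_cons (A : Finset ℕ) (w τ : List ℕ) (a : ℕ) :
    ∑ c ∈ A, ind (c :: w) (a :: τ) ≤ ind w τ := by
  unfold ind
  by_cases h : w <+: τ
  · rw [if_pos h, Finset.sum_boole, Nat.cast_id, Finset.card_le_one]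
    intro c hc d hd
    simp only [mem_filter, List.cons_prefix_cons] at hc hd
    rw [hc.2.1, hd.2.1]
  · rw [if_neg h]
    refine le_of_eq (Finset.sum_eq_zero fun c _ => if_neg fun h' => h ?_)
    exact (List.cons_prefix_cons.1 h').2

lemma occ_snoc (A : Finset ℕ) (T w : List ℕ) : ∑ c ∈ A, occ T (w ++ [c]) ≤ occ T w := by
  induction T with
  | nil => exact ind_snoc A w []
  | cons a T ih =>
    simp only [occ, Finset.sum_add_distrib]
    have := ind_snoc A w (a :: T)
    omega

lemma occ_cons' (A : Finset ℕ) (T w : List ℕ) :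
    ∑ c ∈ A, occ T (c :: w) + ind w T ≤ occ T w := by
  induction T with
  | nil => simp [occ, ind]
  | cons a T ih =>
    simp only [occ, Finset.sum_add_distrib]
    have := ind_cons A w T a
    omega

lemma occ_cons (A : Finset ℕ) (T w : List ℕ) : ∑ c ∈ A, occ T (c :: w) ≤ occ T w :=
  le_trans (Nat.le_add_right _ _) (occ_cons' A T w)

lemma occ_le (T w : List ℕ) : occ T w ≤ T.length + 1 := by
  induction T with
  | nil => simp only [occ, ind]; split_ifs <;> simp
  | cons a T ih => simp only [occ, ind, List.length_cons]; split_ifs <;> omega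

lemma occ_letters (A : Finset ℕ) (T : List ℕ) : ∑ c ∈ A, occ T [c] ≤ T.length := by
  have h1 := occ_cons' A T []
  have h2 := occ_le T []
  simp only [ind, List.nil_prefix, if_true] at h1
  omega

lemma occ_eq_zero {T w : List ℕ} (h : T.length < w.length) : occ T w = 0 := by
  induction T with
  | nil =>
    simp only [occ, ind]
    exact if_neg fun h' => by have := h'.length_le; omega
  | cons a T ih =>
    simp only [occ, ind]
    rw [if_neg fun h' => by have := h'.length_le; omega, ih (by simp at h; omega)]

lemma occ_pos {T w : List ℕ} (h : w <:+: T) : 1 ≤ occ T w := by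
  induction T with
  | nil => simp only [List.infix_nil] at h; simp [occ, ind, h]
  | cons a T ih =>
    simp only [occ, ind]
    rcases List.infix_cons_iff.1 h with h | h
    · rw [if_pos h]; omega
    · have := ih h; omega

/-- every occurrence of `w` is followed by a letter of `A` -/
def FR (A : Finset ℕ) (T w : List ℕ) : Prop :=
  ∀ τ, τ <:+ T → w <+: τ → ∃ c ∈ A, w ++ [c] <+: τ

lemma ind_le_of {A : Finset ℕ} {w τ : List ℕ} (h : w <+: τ → ∃ c ∈ A, w ++ [c] <+: τ) :
    ind w τ ≤ ∑ c ∈ A, ind (w ++ [c]) τ := by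
  by_cases hw : w <+: τ
  · obtain ⟨c, hc, h2⟩ := h hw
    refine le_trans ?_ (Finset.single_le_sum (f := fun c => ind (w ++ [c]) τ)
      (fun _ _ => Nat.zero_le _) hc)
    simp [ind, hw, h2]
  · simp [ind, hw]

lemma of_ind_le {A : Finset ℕ} {w τ : List ℕ} (h : ind w τ ≤ ∑ c ∈ A, ind (w ++ [c]) τ)
    (hw : w <+: τ) : ∃ c ∈ A, w ++ [c] <+: τ := by
  by_contra hc
  push Not at hc
  rw [Finset.sum_eq_zero fun c h' => by simp [ind, hc c h']] at h
  simp [ind, hw] at h

lemma occ_le_of_FR {A : Finset ℕ} {T w : List ℕ} (h : FR A T w) :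
    occ T w ≤ ∑ c ∈ A, occ T (w ++ [c]) := by
  induction T with
  | nil => exact ind_le_of (h [] List.suffix_rfl)
  | cons a T ih =>
    simp only [occ, Finset.sum_add_distrib]
    have h1 := ind_le_of (h _ List.suffix_rfl)
    have h2 := ih fun τ hτ => h τ (hτ.trans (List.suffix_cons a T))
    omega

lemma FR_of_le {A : Finset ℕ} {T w : List ℕ} (h : occ T w ≤ ∑ c ∈ A, occ T (w ++ [c])) :
    FR A T w := by
  induction T with
  | nil =>
    intro τ hτ
    rw [List.suffix_nil.1 hτ]
    exact of_ind_le h
  | cons a T ih =>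
    simp only [occ, Finset.sum_add_distrib] at h
    have h1 := ind_snoc A w (a :: T)
    have h2 := occ_snoc A T w
    intro τ hτ
    rcases List.suffix_cons_iff.1 hτ with rfl | hτ
    · exact of_ind_le (by omega)
    · exact ih (by omega) τ hτ

lemma FR.append {A : Finset ℕ} {T w : List ℕ} (h : FR A T w) (u : List ℕ) : FR A T (u ++ w) := by
  rintro τ hτ ⟨r, rfl⟩
  obtain ⟨c, hc, r', hr⟩ := h (w ++ r) ((List.suffix_append u _).trans (by simpa using hτ))
    (List.prefix_append _ _)
  exact ⟨c, hc, r', by simp only [List.append_assoc] at hr ⊢; rw [hr]⟩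

lemma le_of_sum_le {A : Finset ℕ} {f g : ℕ → ℕ} (h : ∀ c ∈ A, f c ≤ g c)
    (h2 : ∑ c ∈ A, g c ≤ ∑ c ∈ A, f c) : ∀ c ∈ A, g c ≤ f c := fun c hc =>
  ((Finset.sum_eq_sum_iff_of_le h).1 (le_antisymm (Finset.sum_le_sum h) h2) c hc).ge

/-- The forcing rule is valid for every string `T` dominating the counts of longer words. -/
theorem fire_valid (A : Finset ℕ) (T : List ℕ) (n : List ℕ → ℕ) (ω : ℤ → ℕ) (p h : ℤ)
    (hp : 0 < p) (hph : p ≤ h) (hper : Per ω p) (hA : ∀ j, ω j ∈ A)
    (IH : ∀ w : List ℕ, h - p < w.length → n w ≤ occ T w)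
    (G2 : ∀ w : List ℕ, h - p < w.length → ∑ c ∈ A, n (w ++ [c]) ≤ n w)
    (hu : ∑ c ∈ A, n (c :: word ω 0 h) < n (word ω 0 h))
    (hd : ∀ b, h < b → b < h + p → n (word ω p b) ≤ ∑ c ∈ A, n (word ω p b ++ [c]))
    (he : ∀ a b c, a ≤ p → h ≤ b → b < h + p → c ∈ A → c ≠ ω b →
      n (word ω a b ++ [c]) ≤ ∑ e ∈ A, n (e :: (word ω a b ++ [c]))) :
    ∑ c ∈ A, n (word ω p h ++ [c]) < occ T (word ω p h) := by
  by_contra h0
  push Not at h0
  have len : ∀ a b c, a ≤ p → h ≤ b → h - p < ((word ω a b ++ [c]).length : ℕ) := by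
    intro a b c h1 h2
    have := length_word (ω := ω) (a := a) (b := b) (by omega)
    simp only [List.length_append, List.length_singleton]
    omega
  have tight : ∀ b, h ≤ b → occ T (word ω p b) ≤ ∑ c ∈ A, n (word ω p b ++ [c]) →
      ∀ c ∈ A, occ T (word ω p b ++ [c]) ≤ n (word ω p b ++ [c]) := fun b hb h1 =>
    le_of_sum_le (fun c _ => IH _ (len _ _ _ le_rfl hb)) ((occ_snoc A T _).trans h1)
  have col : ∀ b, h ≤ b → b < h + p → occ T (word ω p b) ≤ ∑ c ∈ A, n (word ω p b ++ [c]) := by
    intro b hb
    induction b, hb using Int.leInduction with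
    | base => exact fun _ => h0
    | succ b hb ih =>
      intro h1
      have := tight b hb (ih (by omega)) _ (hA b)
      rw [← word_succ (by omega)] at this
      exact this.trans (hd _ (by omega) h1)
  have fr : ∀ b, h ≤ b → b < h + p → FR A T (word ω p b) := fun b h1 h2 =>
    FR_of_le ((col b h1 h2).trans (Finset.sum_le_sum fun c _ => IH _ (len _ _ _ le_rfl h1)))
  have tr : ∀ b c, h ≤ b → b < h + p → c ∈ A → c ≠ ω b → ∀ a, a ≤ p →
      occ T (word ω a b ++ [c]) ≤ n (word ω a b ++ [c]) := by
    intro b c h1 h2 hc hne a ha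
    induction a, ha using Int.leInductionDown with
    | base => exact tight b h1 (col b h1 h2) c hc
    | pred a ha ih =>
      have h3 := le_of_sum_le (A := A) (f := fun e => n (e :: (word ω a b ++ [c])))
        (g := fun e => occ T (e :: (word ω a b ++ [c])))
        (fun e _ => IH _ (by have := len a b c ha h1; simp only [List.length_cons]; omega))
        ((occ_cons A T _).trans (ih.trans (he a b c ha h1 h2 hc hne))) _ (hA (a - 1))
      rw [word_cons (a := a - 1) (by omega), sub_add_cancel]
      exact h3
  have fin : ∀ k : ℕ, ∀ β, h + p ≤ β → p + T.length < β + k →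
      occ T (word ω p β) ≤ ∑ e ∈ A, n (e :: word ω p β) := by
    intro k
    induction k with
    | zero =>
      intro β h1 h2
      have := length_word (ω := ω) (a := p) (b := β) (by omega)
      rw [occ_eq_zero (by omega)]
      exact Nat.zero_le _
    | succ k ih =>
      intro β h1 h2
      have hm0 := Int.emod_nonneg (β - h) hp.ne'
      have hm1 := Int.emod_lt_of_pos (β - h) hp
      have hm2 := Int.emod_add_ediv_mul (β - h) p
      have hm3 : 0 ≤ (β - h) / p * p := mul_nonneg (Int.ediv_nonneg (by omega) hp.le) hp.le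
      set m := (β - h) / p * p with hm
      set b := h + (β - h) % p with hb
      have hpm : Per ω m := hper.int_mul _
      have e1 : word ω p β = word ω (p - m) b := by
        rw [← hpm.word (a := p - m) (b := b) (by omega)]
        congr 1 <;> omega
      have e2 : ω β = ω b := by rw [← hpm b]; congr 1; omega
      have hfr : FR A T (word ω p β) := by
        rw [e1, ← word_append (b := p) (by omega) (by omega)]
        exact (fr b (by omega) (by omega)).append _
      calc occ T (word ω p β) ≤ ∑ c ∈ A, occ T (word ω p β ++ [c]) := occ_le_of_FR hfr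
        _ ≤ ∑ c ∈ A, ∑ e ∈ A, n (e :: (word ω p β ++ [c])) := by
          refine Finset.sum_le_sum fun c hc => ?_
          by_cases hne : c = ω β
          · rw [hne, ← word_succ (by omega)]
            exact ih _ (by omega) (by push_cast at h2 ⊢; omega)
          · rw [e1]
            rw [e2] at hne
            exact (tr b c (by omega) (by omega) hc hne _ (by omega)).trans
              (he _ b c (by omega) (by omega) (by omega) hc hne)
        _ = ∑ e ∈ A, ∑ c ∈ A, n ((e :: word ω p β) ++ [c]) := Finset.sum_comm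
        _ ≤ ∑ e ∈ A, n (e :: word ω p β) := by
          refine Finset.sum_le_sum fun e _ => G2 _ ?_
          have := length_word (ω := ω) (a := p) (b := β) (by omega)
          simp only [List.length_cons]
          omega
  have h1 := fin (T.length + 1) (h + p) le_rfl (by push_cast; omega)
  have e : word ω p (h + p) = word ω 0 h := by
    simpa using hper.word (a := 0) (b := h) (by omega)
  rw [e] at h1
  have h2 := IH (word ω 0 h) (by have := length_word (ω := ω) (a := 0) (b := h) (by omega); omega)
  omega

end Vale.Agent.P333
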