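import Vale.Agent.P333.Algo
import Vale.Agent.Lib.PTime.Rat

/-! The algorithm runs in polynomial time. -/

namespace Vale.Agent.P333

open Vale.Agent.PT

variable {α σ : Type} [TEnc α] [TEnc σ]

@[fun_prop] lemma pb_min {f g : α → ℕ} (hg : PB g) : PB fun a => min (f a) (g a) :=
  hg.of_le fun _ => min_le_right _ _

lemma iterate_add {n : α → ℕ} {i : α → σ} {f : α → σ → σ} (hn : PTime n) (hnB : PB n)
    (hi : PTime i) (hf : PTime fun p : α × σ => f p.1 p.2) (B : α → ℕ) (hB : PB B)
    (h : ∀ a s, sz (f a s) ≤ sz s + B a) : PTime fun a => (f a)^[n a] (i a) := by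
  refine PTime.iterate hn hnB hi hf (fun a => sz (i a) + n a * B a) (by fun_prop) fun a k hk => ?_
  have : ∀ k, sz ((f a)^[k] (i a)) ≤ sz (i a) + k * B a := by
    intro k
    induction k with
    | zero => simp
    | succ k ih =>
      rw [Function.iterate_succ_apply', add_mul]
      have := h a ((f a)^[k] (i a))
      omega
  exact (this k).trans (by gcongr)

@[fun_prop] lemma pt_app {w : α → List ℕ} {s : α → Option ℕ} (hw : PTime w) (hs : PTime s) :
    PTime fun a => app (w a) (s a) := by
  unfold app; fun_prop

@[fun_prop] lemma pt_run {w : α → List ℕ} {s : α → List (Option ℕ)} (hw : PTime w)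
    (hs : PTime s) : PTime fun a => run (w a) (s a) := by
  refine hs.foldl_add hw (f := fun _ v x => app v x) (by fun_prop) (fun a => sz (s a))
    (by fun_prop) fun a v x hx => ?_
  have := sz_le_of_mem hx
  cases x with
  | none =>
    have := sz_sublist (List.tail_sublist v)
    simp only [app_none]; omega
  | some c =>
    have := sz_append v [c]
    simp only [app_some, sz_cons, sz_nil, sz_some] at *
    omega

@[fun_prop] lemma pt_ups {s : α → List (Option ℕ)} (hs : PTime s) : PTime fun a => ups (s a) :=
  hs.filterMap (f := fun _ x => x) (by fun_prop)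

@[fun_prop] lemma pt_cost {s : α → List (Option ℕ)} (hs : PTime s) : PTime fun a => cost (s a) := by
  unfold cost; fun_prop

@[fun_prop] lemma pt_vts {K : α → Walk} (hK : PTime K) : PTime fun a => vts (K a) := by
  unfold vts; fun_prop

@[fun_prop] lemma pt_merge {M : α → List (Option ℕ)} {K : α → Walk} (hM : PTime M)
    (hK : PTime K) : PTime fun a => merge (M a) (K a) := by
  unfold merge; fun_prop

@[fun_prop] lemma pt_touch {Z K : α → Walk} (hZ : PTime Z) (hK : PTime K) :
    PTime fun a => touch (Z a) (K a) := by
  unfold touch; fun_prop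

@[fun_prop] lemma pt_good {L : α → List Walk} {Z : α → Walk} (hL : PTime L) (hZ : PTime Z) :
    PTime fun a => good (L a) (Z a) := by
  unfold good; fun_prop

lemma pt_zw : PTime fun q : List ℕ × ℕ × List ℕ =>
    zw q.1 (min q.2.1 (q.1.length + q.2.2.length)) q.2.2 := by
  unfold zw; fun_prop

@[fun_prop] lemma pt_cands {U : α → List (List ℕ)} {M : α → List (Option ℕ)} (hU : PTime U)
    (hM : PTime M) : PTime fun a => cands (U a) (M a) := by
  refine PTime.of_eq (f := fun a => (vts ([], M a)).flatMap fun z => (U a).flatMap fun e1 =>
    (U a).flatMap fun e2 => (List.range (e1.length + e2.length + 1)).map fun k =>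
      (z, zw e1 (min k (e1.length + e2.length)) e2)) ?_ fun a => ?_
  · refine PTime.flatMap (by fun_prop) (PTime.flatMap (by fun_prop) (PTime.flatMap (by fun_prop)
      (PTime.map (by fun_prop) (PTime.prodMk (by fun_prop) ?_))))
    exact pt_zw.comp (f := fun q : (((α × List ℕ) × List ℕ) × List ℕ) × ℕ =>
      (q.1.1.2, q.2, q.1.2)) (by fun_prop)
  · unfold cands
    refine List.flatMap_congr fun z _ => List.flatMap_congr fun e1 _ =>
      List.flatMap_congr fun e2 _ => List.map_congr_left fun k hk => ?_
    rw [min_eq_left (by simp only [List.mem_range] at hk; omega)]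

lemma sz_merge (M : List (Option ℕ)) (K : Walk) : sz (merge M K) ≤ sz M + sz K.2 := by
  rcases merge_cases M K with ⟨h, -⟩ | ⟨s, t, s', t', h1, h2, -, h4⟩
  · rw [h]; omega
  · rw [h4, h1, h2]
    have := sz_append (s ++ (t' ++ s')) t
    have := sz_append s (t' ++ s')
    have := sz_append t' s'
    have := sz_append s' t'
    have := sz_append s t
    omega

lemma sz_foldl_merge (l : List Walk) (M : List (Option ℕ)) :
    sz (l.foldl merge M) ≤ sz M + sz l := by
  induction l generalizing M with
  | nil => simp
  | cons K l ih =>
    have h1 := ih (merge M K)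
    have h2 := sz_merge M K
    have h3 : sz K = sz K.1 + sz K.2 + 1 := sz_prod _ _
    simp only [List.foldl_cons, sz_cons]
    omega

@[fun_prop] lemma pt_foldl_merge {M : α → List (Option ℕ)} {L : α → List Walk} (hM : PTime M)
    (hL : PTime L) : PTime fun a => (L a).foldl merge (M a) :=
  hL.foldl hM (f := fun _ => merge) (by fun_prop) (fun a => sz (M a) + sz (L a)) (by fun_prop)
    fun a k => (sz_foldl_merge _ _).trans (by
      have := sz_sublist (List.take_sublist k (L a))
      omega)

lemma pt_mstep : PTime fun p : List (List ℕ) × List (Option ℕ) × List Walk => mstep p.1 p.2 := by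
  unfold mstep; fun_prop

lemma sz_map_some (e : List ℕ) : sz (e.map some) ≤ 2 * sz e := by
  induction e with
  | nil => simp
  | cons c e ih =>
    have := sz_pos c
    simp only [List.map_cons, sz_cons, sz_some]; omega

lemma sz_downs (k : ℕ) : sz (List.replicate k (none : Option ℕ)) = 2 * k + 1 := by
  induction k with
  | zero => simp
  | succ k ih => simp only [List.replicate_succ, sz_cons, sz_none, ih]; omega

lemma sz_filter (l : List Walk) (p : Walk → Bool) :
    sz (l.filter p) + sz (l.filter fun a => !p a) = sz l + 1 := by
  have := sum_filter_add l p fun a => sz a + 1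
  simp only [sz_list (α := Walk)]
  omega

lemma sz_mstep (U : List (List ℕ)) (st) : sz (mstep U st) ≤ sz st + (8 * sz U + 1) := by
  rcases mstep_cases U st with h | ⟨Z, hZ, -, e⟩
  · rw [h.1]; omega
  · rw [e]
    obtain ⟨M, L⟩ := st
    simp only [cands, List.mem_flatMap, List.mem_map, List.mem_range] at hZ
    obtain ⟨z, -, e1, h1, e2, h2, k, hk, rfl⟩ := hZ
    have a1 := sz_foldl_merge (L.filter fun K => touch (z, zw e1 k e2) K) (merge M (z, zw e1 k e2))
    have a2 := sz_merge M (z, zw e1 k e2)
    have a3 := sz_filter L fun K => touch (z, zw e1 k e2) K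
    have a4 : sz (zw e1 k e2) ≤ 8 * sz U := by
      unfold zw
      have := sz_le_of_mem h1
      have := sz_le_of_mem h2
      have := sz_map_some e1
      have := sz_map_some e2
      have := length_lt_sz e1
      have := length_lt_sz e2
      have := sz_downs k
      have := sz_downs (e1.length + e2.length - k)
      have := sz_append (e1.map some ++ List.replicate k none ++ e2.map some)
        (List.replicate (e1.length + e2.length - k) none)
      have := sz_append (e1.map some ++ List.replicate k none) (e2.map some)
      have := sz_append (e1.map some) (List.replicate k none)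
      omega
    simp only [sz_prod] at *
    omega

@[fun_prop] lemma pt_link {U : α → List (List ℕ)} {L : α → List Walk} (hU : PTime U)
    (hL : PTime L) : PTime fun a => link (U a) (L a) :=
  (iterate_add (f := fun a => mstep (U a)) (by fun_prop) (by fun_prop) (by fun_prop)
    (pt_mstep.comp (f := fun p : α × List (Option ℕ) × List Walk => (U p.1, p.2)) (by fun_prop))
    (fun a => 8 * sz (U a) + 1) (by fun_prop) fun a s => sz_mstep _ _).fst

lemma pt_dstep : PTime dstep := by
  unfold dstep; fun_prop

lemma sz_dstep (st) : sz (dstep st) ≤ sz st + 1 := by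
  obtain ⟨D, todo⟩ := st
  cases todo with
  | nil => exact Nat.le_succ _
  | cons P rest =>
    simp only [dstep, PT.lcas_cons]
    split_ifs with hc
    · simp only [sz_prod, sz_cons]; omega
    · generalize (rest.findIdx fun Q => decide (Q.1 = run P.1 P.2)) = i
      obtain ⟨v, s⟩ := P
      have a1 := sz_append s (rest.getD i ([], [])).2
      have a2 := sz_append (rest.take i) (rest.drop (i + 1))
      have a3 : sz (rest.getD i ([], [])).2 + sz (rest.take i) + sz (rest.drop (i + 1)) ≤
          sz rest + 2 := by
        by_cases hi : i < rest.length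
        · rw [List.getD_eq_getElem _ _ hi]
          have hr : rest = rest.take i ++ rest[i] :: rest.drop (i + 1) := by simp
          have b1 := sz_append (rest.take i) (rest[i] :: rest.drop (i + 1))
          have b2 : sz rest[i] = sz rest[i].1 + sz rest[i].2 + 1 := sz_prod _ _
          rw [← hr, sz_cons] at b1
          omega
        · rw [List.getD_eq_default _ _ (by omega), List.take_of_length_le (by omega),
            List.drop_eq_nil_of_le (by omega)]
          simp only [sz_nil]; omega
      simp only [sz_prod, sz_cons] at *
      omega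

@[fun_prop] lemma pt_decomp {L : α → List Walk} (hL : PTime L) : PTime fun a => decomp (L a) :=
  (iterate_add (f := fun _ => dstep) (by fun_prop) (by fun_prop) (by fun_prop)
    (pt_dstep.comp (by fun_prop)) (fun _ => 1) (by fun_prop) fun _ s => sz_dstep s).fst

end Vale.Agent.P333
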