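import Vale.Agent.P333.Poly

/-! The counting part of the algorithm runs in polynomial time. -/

namespace Vale.Agent.P333

open Vale.Agent.PT

variable {α : Type} [TEnc α]

@[fun_prop] lemma pt_subs {S : α → List (List ℕ)} (hS : PTime S) : PTime fun a => subs (S a) := by
  unfold subs; fun_prop

@[fun_prop] lemma pt_alph {S : α → List (List ℕ)} (hS : PTime S) : PTime fun a => alph (S a) := by
  unfold alph; fun_prop

@[fun_prop] lemma pt_bnd {S : α → List (List ℕ)} (hS : PTime S) : PTime fun a => bnd (S a) := by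
  unfold bnd; fun_prop

@[fun_prop] lemma pb_bnd {S : α → List (List ℕ)} (hS : PTime S) : PB fun a => bnd (S a) := by
  unfold bnd; fun_prop

@[fun_prop] lemma pt_lk {t : α → List (List ℕ × ℕ)} {w : α → List ℕ} (ht : PTime t)
    (hw : PTime w) : PTime fun a => lk (t a) (w a) := by
  unfold lk; fun_prop

@[fun_prop] lemma pt_Ls {A : α → List ℕ} {t : α → List (List ℕ × ℕ)} {w : α → List ℕ}
    (hA : PTime A) (ht : PTime t) (hw : PTime w) : PTime fun a => Ls (A a) (lk (t a)) (w a) := by
  unfold Ls; fun_prop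

@[fun_prop] lemma pt_Rs {A : α → List ℕ} {t : α → List (List ℕ × ℕ)} {w : α → List ℕ}
    (hA : PTime A) (ht : PTime t) (hw : PTime w) : PTime fun a => Rs (A a) (lk (t a)) (w a) := by
  unfold Rs; fun_prop

@[fun_prop] lemma pt_om {x : α → List ℕ} {p : α → ℕ} {i : α → ℤ} (hx : PTime x) (hp : PTime p)
    (hi : PTime i) : PTime fun a => om (x a) (p a) (i a) := by
  unfold om; fun_prop

@[fun_prop] lemma pt_wl {x : α → List ℕ} {p n : α → ℕ} {i : α → ℤ} (hx : PTime x) (hp : PTime p)
    (hi : PTime i) (hn : PTime n) (hB : PB n) :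
    PTime fun a => wl (om (x a) (p a)) (i a) (n a) := by
  unfold wl; fun_prop

/-- no down arc -/
def nd (S : List (List ℕ)) (t : List (List ℕ × ℕ)) (w : List ℕ) : Bool :=
  decide (lk t w ≤ Rs (alph S) (lk t) w)

/-- no up arc -/
def nu (S : List (List ℕ)) (t : List (List ℕ × ℕ)) (w : List ℕ) : Bool :=
  decide (lk t w ≤ Ls (alph S) (lk t) w)

@[fun_prop] lemma pt_nd {S : α → List (List ℕ)} {t : α → List (List ℕ × ℕ)} {w : α → List ℕ}
    (hS : PTime S) (ht : PTime t) (hw : PTime w) : PTime fun a => nd (S a) (t a) (w a) := by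
  unfold nd; fun_prop

@[fun_prop] lemma pt_nu {S : α → List (List ℕ)} {t : α → List (List ℕ × ℕ)} {w : α → List ℕ}
    (hS : PTime S) (ht : PTime t) (hw : PTime w) : PTime fun a => nu (S a) (t a) (w a) := by
  unfold nu; fun_prop

/-- clipped window -/
def wc (x : List ℕ) (p : ℕ) (i : ℤ) (n : ℕ) (B : List ℕ) : List ℕ :=
  wl (om x p) i (min n B.length)

lemma wc_eq {x p i n B} (h : n ≤ B.length) : wc x p i n B = wl (om x p) i n := by
  rw [wc, min_eq_left h]

@[fun_prop] lemma pt_wc {x B : α → List ℕ} {p n : α → ℕ} {i : α → ℤ} (hx : PTime x) (hp : PTime p)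
    (hi : PTime i) (hn : PTime n) (hB : PTime B) :
    PTime fun a => wc (x a) (p a) (i a) (n a) (B a) := by
  unfold wc; fun_prop

def f2 (S : List (List ℕ)) (t : List (List ℕ × ℕ)) (x B : List ℕ) (l p j k : ℕ) : Bool :=
  (alph S).all fun c => decide (c = om x p ((x.length + j : ℕ) : ℤ)) ||
    nu S t (wc x p ((p : ℤ) - (k : ℤ)) (l + j + k) B ++ [c])

@[fun_prop] lemma pt_f2 {S : α → List (List ℕ)} {t : α → List (List ℕ × ℕ)} {x B : α → List ℕ}
    {l p j k : α → ℕ} (hS : PTime S) (ht : PTime t) (hx : PTime x) (hB : PTime B) (hl : PTime l)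
    (hp : PTime p) (hj : PTime j) (hk : PTime k) :
    PTime fun a => f2 (S a) (t a) (x a) (B a) (l a) (p a) (j a) (k a) := by
  unfold f2; fun_prop

def f3 (S : List (List ℕ)) (t : List (List ℕ × ℕ)) (v x : List ℕ) : Bool :=
  (List.range (x.length - v.length)).all fun j => (List.range (bnd S)).all fun k =>
    f2 S t x (x ++ S.flatten) v.length (x.length - v.length) j k

@[fun_prop] lemma pt_f3 {S : α → List (List ℕ)} {t : α → List (List ℕ × ℕ)} {v x : α → List ℕ}
    (hS : PTime S) (ht : PTime t) (hv : PTime v) (hx : PTime x) :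
    PTime fun a => f3 (S a) (t a) (v a) (x a) := by
  unfold f3; fun_prop

def f4 (S : List (List ℕ)) (t : List (List ℕ × ℕ)) (v x : List ℕ) : Bool :=
  (List.range (x.length - v.length)).all fun j => decide (j = 0) ||
    nd S t (wc x (x.length - v.length) ((x.length - v.length : ℕ) : ℤ) (v.length + j) x)

@[fun_prop] lemma pt_f4 {S : α → List (List ℕ)} {t : α → List (List ℕ × ℕ)} {v x : α → List ℕ}
    (hS : PTime S) (ht : PTime t) (hv : PTime v) (hx : PTime x) :
    PTime fun a => f4 (S a) (t a) (v a) (x a) := by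
  unfold f4; fun_prop

def f5 (v x : List ℕ) : Bool :=
  decide (v.length < x.length ∧ x = wl (om x (x.length - v.length)) 0 x.length ∧
    v = wl (om x (x.length - v.length)) ((x.length - v.length : ℕ) : ℤ) v.length)

@[fun_prop] lemma pt_f5 {v x : α → List ℕ} (hv : PTime v) (hx : PTime x) :
    PTime fun a => f5 (v a) (x a) := by
  unfold f5; fun_prop

lemma fire_eq (S t v x) : fire S (lk t) v x (x.length - v.length) =
    (f5 v x && (!nu S t x && (f4 S t v x && f3 S t v x))) := by
  rw [Bool.eq_iff_iff]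
  simp only [fire, f5, nu, f4, f3, f2, nd, Bool.and_eq_true, decide_eq_true_eq,
    Bool.not_eq_true', decide_eq_false_iff_not, not_le, List.all_eq_true, List.mem_range,
    Bool.or_eq_true, and_assoc]
  refine and_congr_right fun h => and_congr_right fun _ =>
      and_congr_right fun _ => and_congr_right fun _ => and_congr ?_ ?_
  · refine forall₂_congr fun j hj => ?_
    rw [wc_eq (by omega), or_iff_not_imp_left, Nat.pos_iff_ne_zero]
  · refine forall₄_congr fun j hj k hk => forall₂_congr fun c _ => ?_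
    rw [wc_eq (by simp only [bnd, List.length_append] at hk ⊢; omega), or_iff_not_imp_left]

lemma pt_fire : PTime fun q : List (List ℕ) × List (List ℕ × ℕ) × List ℕ × List ℕ =>
    fire q.1 (lk q.2.1) q.2.2.1 q.2.2.2 (q.2.2.2.length - q.2.2.1.length) := by
  simp only [fire_eq]
  fun_prop

lemma pt_stepT : PTime fun q : List (List ℕ) × List (List ℕ × ℕ) => stepT q.1 q.2 := by
  unfold stepT Phi
  refine PTime.map (by fun_prop) (PTime.prodMk (by fun_prop) (PTime.min (by fun_prop)
    (PTime.max (by fun_prop) (PTime.add (by fun_prop) (PTime.ite (PTime.decide_eq_true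
      (PTime.any (by fun_prop) ?_)) (by fun_prop) (by fun_prop))))))
  exact pt_fire.comp (f := fun q : ((List (List ℕ) × List (List ℕ × ℕ)) × List ℕ) × List ℕ =>
    (q.1.1.1, q.1.1.2, q.1.2, q.2)) (by fun_prop)

lemma pt_tbl : PTime tbl := by
  refine PTime.iterate (f := fun S => stepT S) (n := bnd) (i := fun _ => []) (by fun_prop)
    (by fun_prop) (by fun_prop) pt_stepT
    (fun S => (subs S).length * (sz (subs S) + (4 * bnd S + 1) + 1 + 1) + 1) (by fun_prop)
    fun S k _ => ?_
  cases k with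
  | zero => simp
  | succ k =>
    rw [Function.iterate_succ_apply', stepT]
    refine (sz_list_le _ (B := sz (subs S) + (4 * bnd S + 1) + 1) fun q hq => ?_).trans (by simp)
    obtain ⟨w, hw, rfl⟩ := List.mem_map.1 hq
    have h1 := sz_le_of_mem hw
    have h2 := sz_nat_le_self (min (bnd S) (Phi S (lk ((stepT S)^[k] [])) w))
    have h3 := min_le_left (bnd S) (Phi S (lk ((stepT S)^[k] [])) w)
    simp only [sz_prod]
    omega

def a1 (S : List (List ℕ)) (t : List (List ℕ × ℕ)) (z : List ℕ) (c : ℕ) : List Walk :=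
  List.replicate (min (lk t (z ++ [c]) - Ls (alph S) (lk t) (z ++ [c])) (bnd S)) (z, [some c])

def a2 (S : List (List ℕ)) (t : List (List ℕ × ℕ)) (z : List ℕ) (c : ℕ) : List Walk :=
  List.replicate (min (lk t (c :: z) - Rs (alph S) (lk t) (c :: z)) (bnd S)) (c :: z, [none])

@[fun_prop] lemma pt_a1 {S : α → List (List ℕ)} {t : α → List (List ℕ × ℕ)} {z : α → List ℕ}
    {c : α → ℕ} (hS : PTime S) (ht : PTime t) (hz : PTime z) (hc : PTime c) :
    PTime fun a => a1 (S a) (t a) (z a) (c a) := by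
  have h : PTime fun a => z a ++ [c a] := by fun_prop
  exact PTime.replicate (((pt_lk ht h).sub (pt_Ls (pt_alph hS) ht h)).min (pt_bnd hS))
    (pb_min (pb_bnd hS)) (by fun_prop)

@[fun_prop] lemma pt_a2 {S : α → List (List ℕ)} {t : α → List (List ℕ × ℕ)} {z : α → List ℕ}
    {c : α → ℕ} (hS : PTime S) (ht : PTime t) (hz : PTime z) (hc : PTime c) :
    PTime fun a => a2 (S a) (t a) (z a) (c a) := by
  have h : PTime fun a => c a :: z a := by fun_prop
  exact PTime.replicate (((pt_lk ht h).sub (pt_Rs (pt_alph hS) ht h)).min (pt_bnd hS))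
    (pb_min (pb_bnd hS)) (by fun_prop)

lemma pt_arcl0 : PTime fun q : List (List ℕ) × List (List ℕ × ℕ) =>
    (subs q.1).flatMap fun z => (alph q.1).flatMap fun c => a1 q.1 q.2 z c ++ a2 q.1 q.2 z c := by
  fun_prop

lemma pt_arcl : PTime fun S => arcl S (cnt S) := by
  refine (pt_arcl0.comp (PTime.id.prodMk pt_tbl)).of_eq fun S => ?_
  unfold arcl a1 a2
  refine List.flatMap_congr fun z _ => List.flatMap_congr fun c _ => ?_
  have e1 : lk (tbl S) (z ++ [c]) - Ls (alph S) (lk (tbl S)) (z ++ [c]) ≤ bnd S :=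
    (Nat.sub_le _ _).trans (cnt_le_bnd _)
  have e2 : lk (tbl S) (c :: z) - Rs (alph S) (lk (tbl S)) (c :: z) ≤ bnd S :=
    (Nat.sub_le _ _).trans (cnt_le_bnd _)
  simp only [min_eq_left e1, min_eq_left e2, cnt]

theorem pt_scs : PTime scs := by
  exact pt_ups (pt_link (pt_subs PTime.id) (pt_decomp pt_arcl))

end Vale.Agent.P333
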