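import Mathlib

/-! Windows of bi-infinite words and elementary periodicity lemmas. -/

namespace Vale.Agent.P333

/-- the window of length `n` starting at `a` -/
def wl (ω : ℤ → ℕ) (a : ℤ) (n : ℕ) : List ℕ := (List.range n).map fun i : ℕ => ω (a + i)

/-- the window `[a, b)` -/
def word (ω : ℤ → ℕ) (a b : ℤ) : List ℕ := wl ω a (b - a).toNat

/-- `p` is a period -/
def Per (ω : ℤ → ℕ) (p : ℤ) : Prop := ∀ j, ω (j + p) = ω j

variable {ω ω' : ℤ → ℕ} {a b c a' b' : ℤ}

@[simp] lemma length_wl (n : ℕ) : (wl ω a n).length = n := by simp [wl]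

lemma length_word (h : a ≤ b) : ((word ω a b).length : ℤ) = b - a := by
  simp [word]; omega

lemma wl_eq_word (n : ℕ) : wl ω a n = word ω a (a + n) := by simp [word]

lemma wl_succ (n : ℕ) : wl ω a (n + 1) = wl ω a n ++ [ω (a + n)] := by
  simp [wl, List.range_succ]

lemma word_self : word ω a a = [] := by simp [word, wl]

lemma word_succ (h : a ≤ b) : word ω a (b + 1) = word ω a b ++ [ω b] := by
  have : (b + 1 - a).toNat = (b - a).toNat + 1 := by omega
  rw [word, this, wl_succ, word]
  congr 3; omega

lemma word_ext (hab : a ≤ b) (h : b - a = b' - a')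
    (h2 : ∀ i, a ≤ i → i < b → ω i = ω' (i - a + a')) : word ω a b = word ω' a' b' := by
  unfold word wl
  rw [← h]
  refine List.map_congr_left fun i hi => ?_
  rw [List.mem_range] at hi
  rw [h2 _ (by omega) (by omega)]
  congr 1; ring

lemma eq_of_word_eq (hab : a ≤ b) (hab' : a' ≤ b') (h : word ω a b = word ω' a' b') :
    b - a = b' - a' ∧ ∀ i, a ≤ i → i < b → ω i = ω' (i - a + a') := by
  have hl : b - a = b' - a' := by
    rw [← length_word (ω := ω) hab, ← length_word (ω := ω') hab', h]
  refine ⟨hl, fun i h1 h2 => ?_⟩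
  unfold word wl at h
  rw [← hl] at h
  have := List.map_inj_left.1 h (i - a).toNat (by rw [List.mem_range]; omega)
  have e1 : a + ((i - a).toNat : ℤ) = i := by omega
  have e2 : a' + ((i - a).toNat : ℤ) = i - a + a' := by omega
  rwa [e1, e2] at this

lemma word_append (hab : a ≤ b) (hbc : b ≤ c) : word ω a b ++ word ω b c = word ω a c := by
  induction c, hbc using Int.leInduction with
  | base => simp [word_self]
  | succ c hc ih => rw [word_succ hc, word_succ (hab.trans hc), ← ih, List.append_assoc]

lemma word_one : word ω a (a + 1) = [ω a] := by rw [word_succ le_rfl, word_self]; rfl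

lemma word_cons (h : a < b) : word ω a b = ω a :: word ω (a + 1) b := by
  rw [← word_append (b := a + 1) (by omega) (by omega), word_one]; rfl

lemma word_tail (h : a < b) : (word ω a b).tail = word ω (a + 1) b := by
  rw [word_cons h]; rfl

lemma word_drop (hab : a ≤ c) (hbc : c ≤ b) : (word ω a b).drop (c - a).toNat = word ω c b := by
  rw [← word_append hab hbc, List.drop_left']
  have := length_word (ω := ω) hab
  omega

lemma word_isInfix (h1 : a ≤ a') (h2 : a' ≤ b') (h3 : b' ≤ b) : word ω a' b' <:+: word ω a b :=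
  ⟨word ω a a', word ω b' b, by
    rw [word_append h1 h2, word_append (h1.trans h2) h3]⟩

lemma Per.int_mul {p : ℤ} (h : Per ω p) (m : ℤ) : Per ω (m * p) :=
  fun j => Function.Periodic.int_mul (f := ω) h m j

lemma Per.neg {p : ℤ} (h : Per ω p) : Per ω (-p) := by
  simpa using h.int_mul (-1)

lemma Per.word {p : ℤ} (h : Per ω p) (hab : a ≤ b) : word ω (a + p) (b + p) = word ω a b :=
  (word_ext hab (by ring) fun i _ _ => by rw [← h i]; congr 1; ring).symm

/-- two words with a common period that agree on a window of that length are equal -/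
lemma eq_of_per {p : ℤ} (hp : 0 < p) (h : Per ω p) (h' : Per ω' p)
    (hag : ∀ i, a ≤ i → i < a + p → ω i = ω' i) : ω = ω' := by
  funext j
  have e : j = (a + (j - a) % p) + ((j - a) / p) * p := by
    have := Int.emod_add_ediv_mul (j - a) p
    omega
  rw [e, h.int_mul, h'.int_mul]
  have := Int.emod_nonneg (j - a) hp.ne'
  have := Int.emod_lt_of_pos (j - a) hp
  exact hag _ (by omega) (by omega)

/-- weak Fine-Wilf -/
lemma agree_of_per {p q : ℤ} (hp : 0 < p) (hq : 0 < q) (h : Per ω p) (h' : Per ω' q)
    (hag : ∀ i, a ≤ i → i < a + p + q → ω i = ω' i) : ∀ i, a ≤ i → ω i = ω' i := by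
  have key : ∀ k, a + p + q ≤ k → ∀ i, a ≤ i → i < k → ω i = ω' i := by
    intro k hk
    induction k, hk using Int.leInduction with
    | base => exact hag
    | succ k hk ih =>
      intro i h1 h2
      rcases lt_or_eq_of_le (Int.le_of_lt_add_one h2) with h3 | rfl
      · exact ih i h1 h3
      · have e1 := h (i - p)
        have e2 := h' (i - p - q)
        have e3 := h (i - p - q)
        have e4 := h' (i - q)
        have e5 := ih (i - p) (by omega) (by omega)
        have e6 := ih (i - p - q) (by omega) (by omega)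
        have e7 := ih (i - q) (by omega) (by omega)
        rw [show i - p + p = i by ring] at e1
        rw [show i - p - q + q = i - p by ring] at e2
        rw [show i - p - q + p = i - q by ring] at e3
        rw [show i - q + q = i by ring] at e4
        omega
  intro i hi
  exact key (max (i + 1) (a + p + q)) (le_max_right _ _) i hi (by omega)

lemma eq_of_half {p q : ℤ} (hp : 0 < p) (hq : 0 < q) (h : Per ω p) (h' : Per ω' q)
    (hag : ∀ i, a ≤ i → ω i = ω' i) : ω = ω' :=
  eq_of_per (a := a) (mul_pos hq hp) (h.int_mul q) (by rw [mul_comm]; exact h'.int_mul p)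
    fun i hi _ => hag i hi

/-- a repeated long window gives a period -/
lemma per_of_word_eq {p : ℤ} (hp : 0 < p) (h : Per ω p) (hl : a + p ≤ b) (hab' : a' ≤ b')
    (he : word ω a b = word ω a' b') : Per ω (a' - a) ∧ b' = b + (a' - a) := by
  obtain ⟨h1, h2⟩ := eq_of_word_eq (by omega) hab' he
  refine ⟨fun j => ?_, by omega⟩
  have := eq_of_per (a := a) (ω' := fun i => ω (i + (a' - a))) hp h
    (fun j => by
      show ω (j + p + (a' - a)) = ω (j + (a' - a))
      rw [← h (j + (a' - a))]; congr 1; ring)
    (fun i h3 h4 => by rw [h2 i h3 (by omega)]; congr 1; ring)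
  exact (congrFun this j).symm

end Vale.Agent.P333
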